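import Mathlib

/-!
Totally real number fields of every degree, built from the shifted Dickson polynomial
`D_n(X, 2) - 2`, which is Eisenstein at `2` and has the `n` distinct real roots
`2 * sqrt 2 * cos ((phi + 2 * pi * k) / n)`.
-/

namespace Vale.Agent.P007

open Polynomial

namespace DicksonField

/-- The shifted Dickson polynomial `D_n(X, 2) - 2` over the integers. -/
noncomputable def dF (n : ℕ) : ℤ[X] := dickson 1 (2 : ℤ) n - C 2

theorem dickson_form (k : ℕ) :
    ∃ Q : ℤ[X], dickson 1 (2 : ℤ) (k + 1) = X ^ (k + 1) + C 2 * Q := by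
  induction k with
  | zero => exact ⟨0, by simp⟩
  | succ k ih =>
    obtain ⟨Q, hQ⟩ := ih
    refine ⟨X * Q - dickson 1 (2 : ℤ) k, ?_⟩
    rw [dickson_add_two, hQ]
    ring

theorem dickson_natDegree_le : ∀ k : ℕ, (dickson 1 (2 : ℤ) k).natDegree ≤ k
  | 0 => by
    have : dickson 1 (2 : ℤ) 0 = C 2 := by
      rw [dickson_zero]
      simp only [Nat.cast_one, map_ofNat]
      norm_num
    rw [this]
    simp
  | 1 => by simp
  | k + 2 => by
    rw [dickson_add_two]
    refine (natDegree_sub_le _ _).trans (max_le ?_ ?_)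
    · refine (natDegree_mul_le).trans ?_
      have := dickson_natDegree_le (k + 1)
      simp only [natDegree_X]
      omega
    · refine (natDegree_C_mul_le _ _).trans ?_
      have := dickson_natDegree_le k
      omega

theorem dickson_coeff_top : ∀ k : ℕ, (dickson 1 (2 : ℤ) (k + 1)).coeff (k + 1) = 1
  | 0 => by simp
  | k + 1 => by
    rw [dickson_add_two, coeff_sub, coeff_X_mul, coeff_C_mul, dickson_coeff_top k,
      coeff_eq_zero_of_natDegree_lt (lt_of_le_of_lt (dickson_natDegree_le k) (by omega))]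
    simp

theorem dickson_coeff_zero_even : ∀ k : ℕ, (2 : ℤ) ∣ (dickson 1 (2 : ℤ) k).coeff 0
  | 0 => by
    have : dickson 1 (2 : ℤ) 0 = C 2 := by
      rw [dickson_zero]
      simp only [Nat.cast_one, map_ofNat]
      norm_num
    rw [this]
    simp
  | 1 => by simp
  | k + 2 => by
    rw [dickson_add_two, coeff_sub, coeff_C_mul]
    simp

theorem dickson_coeff_zero_four : ∀ k : ℕ, (4 : ℤ) ∣ (dickson 1 (2 : ℤ) (k + 1)).coeff 0
  | 0 => by simp
  | k + 1 => by
    rw [dickson_add_two, coeff_sub, coeff_C_mul]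
    obtain ⟨c, hc⟩ := dickson_coeff_zero_even k
    rw [hc]
    simp only [mul_coeff_zero, coeff_X_zero, zero_mul, zero_sub]
    exact ⟨-c, by ring⟩


theorem dF_natDegree_le (n : ℕ) : (dF n).natDegree ≤ n := by
  unfold dF
  refine (natDegree_sub_le _ _).trans (max_le (dickson_natDegree_le n) ?_)
  simp

theorem dF_coeff_top (k : ℕ) : (dF (k + 1)).coeff (k + 1) = 1 := by
  unfold dF
  rw [coeff_sub, dickson_coeff_top, coeff_C]
  simp

theorem dF_monic (k : ℕ) : (dF (k + 1)).Monic :=
  monic_of_natDegree_le_of_coeff_eq_one (k + 1) (dF_natDegree_le _) (dF_coeff_top k)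

theorem dF_natDegree (k : ℕ) : (dF (k + 1)).natDegree = k + 1 := by
  refine le_antisymm (dF_natDegree_le _) ?_
  refine le_natDegree_of_ne_zero ?_
  rw [dF_coeff_top]
  exact one_ne_zero

theorem dF_eisenstein (k : ℕ) : (dF (k + 1)).IsEisensteinAt (Ideal.span {(2 : ℤ)}) := by
  refine ⟨?_, ?_, ?_⟩
  · rw [(dF_monic k).leadingCoeff, Ideal.mem_span_singleton]
    norm_num
  · intro i hi
    rw [dF_natDegree] at hi
    obtain ⟨Q, hQ⟩ := dickson_form k
    rw [Ideal.mem_span_singleton]
    unfold dF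
    rw [hQ, coeff_sub, coeff_add, coeff_X_pow, if_neg (by omega), coeff_C_mul, coeff_C]
    split_ifs
    · exact ⟨Q.coeff i - 1, by ring⟩
    · exact ⟨Q.coeff i, by ring⟩
  · rw [Ideal.span_singleton_pow, Ideal.mem_span_singleton]
    unfold dF
    rw [coeff_sub, coeff_C_zero]
    obtain ⟨c, hc⟩ := dickson_coeff_zero_four k
    rw [hc]
    rintro ⟨d, hd⟩
    omega

theorem dF_irreducible (k : ℕ) : Irreducible (dF (k + 1)) := by
  refine (dF_eisenstein k).irreducible ?_ (dF_monic k).isPrimitive ?_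
  · rw [Ideal.span_singleton_prime (by norm_num)]
    exact Int.prime_two
  · rw [dF_natDegree]
    omega

theorem dF_map_irreducible (k : ℕ) : Irreducible ((dF (k + 1)).map (Int.castRingHom ℚ)) :=
  ((dF_monic k).irreducible_iff_irreducible_map_fraction_map (K := ℚ)).1 (dF_irreducible k)


theorem eval_dickson_cos (x : ℝ) : ∀ k : ℕ,
    (dickson 1 (2 : ℝ) k).eval (2 * √2 * Real.cos x) = 2 * (√2) ^ k * Real.cos (k * x)
  | 0 => by
    simp
    norm_num
  | 1 => by simp
  | k + 2 => by
    rw [dickson_add_two, eval_sub, eval_mul, eval_mul, eval_X, eval_C, eval_dickson_cos x k,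
      eval_dickson_cos x (k + 1)]
    have hs : (√2 : ℝ) ^ 2 = 2 := Real.sq_sqrt (by norm_num)
    have hc : Real.cos (((k + 2 : ℕ) : ℝ) * x)
        = 2 * Real.cos x * Real.cos (((k + 1 : ℕ) : ℝ) * x) - Real.cos ((k : ℝ) * x) := by
      push_cast
      have e1 : ((k : ℝ) + 2) * x = ((k : ℝ) + 1) * x + x := by ring
      have e2 : (k : ℝ) * x = ((k : ℝ) + 1) * x - x := by ring
      rw [e1, e2, Real.cos_add, Real.cos_sub]
      ring
    rw [hc]
    linear_combination (2 * (√2 : ℝ) ^ k * Real.cos ((k : ℝ) * x)) * hs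

/-- Distinct indices give distinct cosines. -/
theorem cos_index_inj (p : ℝ) (h0 : 0 < p) (h1 : p < Real.pi) (N i j : ℕ) (hi : i < N)
    (hj : j < N)
    (h : Real.cos ((p + 2 * Real.pi * i) / N) = Real.cos ((p + 2 * Real.pi * j) / N)) :
    i = j := by
  have hN : (0 : ℝ) < N := by
    have : 0 < N := by omega
    exact_mod_cast this
  have hpi := Real.pi_pos
  rw [Real.cos_eq_cos_iff] at h
  obtain ⟨m, hm | hm⟩ := h
  · -- (p + 2 pi j)/N = 2 m pi + (p + 2 pi i)/N
    have e : ((j : ℝ) - i) = m * N := by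
      field_simp at hm
      have : 2 * Real.pi * ((j : ℝ) - i - m * N) = 0 := by linarith
      have h2 : (j : ℝ) - i - m * N = 0 := by
        rcases mul_eq_zero.1 this with h | h
        · exfalso; linarith
        · exact h
      linarith
    have e' : ((j : ℤ) - i) = m * N := by exact_mod_cast e
    have hm0 : m = 0 := by
      by_contra hne
      have h1 : (N : ℤ) ≤ |m * N| := by
        rw [abs_mul, Nat.abs_cast]
        have : 1 ≤ |m| := Int.one_le_abs hne
        nlinarith
      rw [← e'] at h1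
      have : |(j : ℤ) - i| < N := by
        rw [abs_lt]
        constructor <;> omega
      omega
    rw [hm0] at e'
    omega
  · -- (p + 2 pi j)/N = 2 m pi - (p + 2 pi i)/N
    exfalso
    have e : p = Real.pi * ((m * N - i - j : ℤ) : ℝ) := by
      field_simp at hm
      push_cast
      linarith
    set z : ℤ := m * N - i - j with hz
    have hz0 : 0 < z := by
      by_contra hneg
      have : (z : ℝ) ≤ 0 := by exact_mod_cast (not_lt.1 hneg)
      nlinarith
    have hz1 : z < 1 := by
      by_contra hneg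
      have : (1 : ℝ) ≤ z := by exact_mod_cast (not_lt.1 hneg)
      nlinarith
    omega


/-- The base angle `arccos (2 ^ (-n/2))`. -/
noncomputable def phi (n : ℕ) : ℝ := Real.arccos (1 / (√2) ^ n)

/-- The `k`-th real root of `dF n`. -/
noncomputable def xr (n k : ℕ) : ℝ := 2 * √2 * Real.cos ((phi n + 2 * Real.pi * k) / n)

theorem one_lt_sqrt_two_pow (n : ℕ) (hn : 1 ≤ n) : (1 : ℝ) < (√2) ^ n := by
  have h : (1 : ℝ) < √2 := by
    rw [show (1 : ℝ) = √1 by simp]
    exact Real.sqrt_lt_sqrt (by norm_num) (by norm_num)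
  exact one_lt_pow₀ h (by omega)

theorem phi_pos (n : ℕ) (hn : 1 ≤ n) : 0 < phi n := by
  unfold phi
  rw [Real.arccos_pos]
  have := one_lt_sqrt_two_pow n hn
  rw [div_lt_one (by linarith)]
  exact this

theorem phi_lt_pi (n : ℕ) : phi n < Real.pi := by
  have h : phi n ≤ Real.pi / 2 := by
    unfold phi
    rw [Real.arccos_le_pi_div_two]
    positivity
  have := Real.pi_pos
  linarith

theorem cos_phi (n : ℕ) (hn : 1 ≤ n) : Real.cos (phi n) = 1 / (√2) ^ n := by
  unfold phi
  have := one_lt_sqrt_two_pow n hn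
  refine Real.cos_arccos ?_ ?_
  · have : (0 : ℝ) ≤ 1 / (√2) ^ n := by positivity
    linarith
  · rw [div_le_one (by linarith)]
    exact this.le

theorem eval_dickson_xr (n k m : ℕ) :
    (dickson 1 (2 : ℝ) m).eval (xr n k)
      = 2 * (√2) ^ m * Real.cos (m * ((phi n + 2 * Real.pi * k) / n)) :=
  eval_dickson_cos _ m

theorem eval_dickson_xr_self (n k : ℕ) (hn : 1 ≤ n) :
    (dickson 1 (2 : ℝ) n).eval (xr n k) = 2 := by
  rw [eval_dickson_xr]
  have hN : (n : ℝ) ≠ 0 := by
    have : n ≠ 0 := by omega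
    exact_mod_cast this
  have e : (n : ℝ) * ((phi n + 2 * Real.pi * k) / n) = phi n + k * (2 * Real.pi) := by
    field_simp
  rw [e, Real.cos_add_nat_mul_two_pi, cos_phi n hn]
  have := one_lt_sqrt_two_pow n hn
  field_simp

theorem xr_inj (n i j : ℕ) (hi : i < n) (hj : j < n) (h : xr n i = xr n j) : i = j := by
  unfold xr at h
  have h2 : (2 * √2 : ℝ) ≠ 0 := by positivity
  exact cos_index_inj (phi n) (phi_pos n (by omega)) (phi_lt_pi n) n i j hi hj
    (mul_left_cancel₀ h2 h)

theorem map_dF_real (n : ℕ) :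
    (dF n).map (Int.castRingHom ℝ) = dickson 1 (2 : ℝ) n - C 2 := by
  unfold dF
  rw [Polynomial.map_sub, map_dickson, map_C]
  simp only [eq_intCast, Int.cast_ofNat]

theorem hom_aeval_int {K : Type} [Field K] (s : K →+* ℝ) (t : K) (P : ℤ[X]) :
    s (aeval t P) = (P.map (Int.castRingHom ℝ)).eval (s t) := by
  rw [aeval_def, hom_eval₂, eval_map]
  congr 1
  exact RingHom.ext_int _ _

theorem eval₂_dF_xr (n k : ℕ) (hn : 1 ≤ n) :
    ((dF n).map (Int.castRingHom ℚ)).eval₂ (algebraMap ℚ ℝ) (xr n k) = 0 := by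
  rw [eval₂_map]
  have : (algebraMap ℚ ℝ).comp (Int.castRingHom ℚ) = Int.castRingHom ℝ := RingHom.ext_int _ _
  rw [this, ← eval_map, map_dF_real, eval_sub, eval_dickson_xr_self n k hn, eval_C]
  simp


/-- The number field `Q[X]/(D_n(X,2) - 2)` with its `n` real embeddings. -/
theorem exists_aux (n : ℕ) (hn : 1 ≤ n) :
    ∃ (K : Type) (_ : Field K) (_ : NumberField K) (s : Fin n → K →+* ℝ) (th : K),
      Module.finrank ℚ K = n ∧ IsIntegral ℤ th ∧ ∀ k : Fin n, s k th = xr n k := by
  obtain ⟨k, rfl⟩ : ∃ k, n = k + 1 := ⟨n - 1, by omega⟩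
  have hfact : Fact (Irreducible ((dF (k + 1)).map (Int.castRingHom ℚ))) :=
    ⟨dF_map_irreducible k⟩
  have hne : (dF (k + 1)).map (Int.castRingHom ℚ) ≠ 0 := hfact.out.ne_zero
  refine ⟨AdjoinRoot ((dF (k + 1)).map (Int.castRingHom ℚ)), inferInstance, inferInstance,
    fun i => AdjoinRoot.lift (algebraMap ℚ ℝ) (xr (k + 1) i) (eval₂_dF_xr (k + 1) i hn),
    AdjoinRoot.root _, ?_, ?_, ?_⟩
  · have h1 := (AdjoinRoot.powerBasis hne).finrank
    rw [AdjoinRoot.powerBasis_dim, (dF_monic k).natDegree_map, dF_natDegree] at h1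
    convert h1
  · refine ⟨dF (k + 1), dF_monic k, ?_⟩
    have h := AdjoinRoot.eval₂_root ((dF (k + 1)).map (Int.castRingHom ℚ))
    rw [eval₂_map] at h
    have e : algebraMap ℤ (AdjoinRoot ((dF (k + 1)).map (Int.castRingHom ℚ)))
        = (AdjoinRoot.of ((dF (k + 1)).map (Int.castRingHom ℚ))).comp (Int.castRingHom ℚ) :=
      RingHom.ext_int _ _
    rw [← e] at h
    exact h
  · intro i
    exact AdjoinRoot.lift_root _


theorem isIntegral_aeval_int {K : Type} [Field K] (t : K) (ht : IsIntegral ℤ t) (P : ℤ[X]) :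
    IsIntegral ℤ (aeval t P) :=
  adjoin_le_integralClosure ht (aeval_mem_adjoin_singleton ℤ t)

end DicksonField

open DicksonField

/-- For every `n ≥ 2` there is a totally real number field of degree `n`, given with all of its
`n` real embeddings and a non-rational integral element. -/
theorem exists_totallyReal (n : ℕ) (hn : 2 ≤ n) :
    ∃ (K : Type) (_ : Field K) (_ : NumberField K) (s : Fin n → K →+* ℝ) (th : K),
      Module.finrank ℚ K = n ∧ Function.Injective s ∧ IsIntegral ℤ th ∧
        (∀ k : ℤ, th ≠ k) := by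
  obtain ⟨K, iF, iN, s, th, hfin, hint, hs⟩ := exists_aux n (by omega)
  refine ⟨K, iF, iN, s, th, hfin, ?_, hint, ?_⟩
  · intro i j hij
    have h : xr n i = xr n j := by rw [← hs i, ← hs j, hij]
    exact Fin.ext (xr_inj n i j i.2 j.2 h)
  · intro k hk
    have h0 := hs ⟨0, by omega⟩
    have h1 := hs ⟨1, by omega⟩
    rw [hk, map_intCast] at h0 h1
    have := xr_inj n 0 1 (by omega) (by omega) (h0.symm.trans h1)
    omega

/-- For `a, b ≥ 2` there is a totally real number field of degree `a * b`, given with all of its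
real embeddings, an integral generator-like element `th` and an integral non-rational element
`al` on which two embeddings that differ on `th` agree (so `al` lies in a proper subfield). -/
theorem exists_field (a b : ℕ) (ha : 2 ≤ a) (hb : 2 ≤ b) :
    ∃ (K : Type) (_ : Field K) (_ : NumberField K) (s : Fin (a * b) → K →+* ℝ) (al th : K),
      Module.finrank ℚ K = a * b ∧ Function.Injective s ∧ IsIntegral ℤ al ∧ IsIntegral ℤ th ∧
        (∀ k : ℤ, al ≠ k) ∧ ∃ i j, s i al = s j al ∧ s i th ≠ s j th := by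
  have hab : 4 ≤ a * b := by nlinarith
  have hlt : a < a * b := by nlinarith
  obtain ⟨K, iF, iN, s, th, hfin, hint, hs⟩ := exists_aux (a * b) (by omega)
  have ha0 : (a : ℝ) ≠ 0 := by
    have : a ≠ 0 := by omega
    exact_mod_cast this
  have hb0 : (b : ℝ) ≠ 0 := by
    have : b ≠ 0 := by omega
    exact_mod_cast this
  have hal : ∀ k : Fin (a * b), s k (aeval th (dickson 1 (2 : ℤ) b))
      = 2 * (√2) ^ b * Real.cos ((phi (a * b) + 2 * Real.pi * (k : ℕ)) / a) := by
    intro k
    rw [hom_aeval_int, map_dickson, hs k]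
    have e2 : (Int.castRingHom ℝ) 2 = 2 := by simp
    rw [e2, eval_dickson_xr]
    congr 2
    push_cast
    field_simp
  refine ⟨K, iF, iN, s, aeval th (dickson 1 (2 : ℤ) b), th, hfin, ?_,
    isIntegral_aeval_int th hint _, hint, ?_, ⟨0, by omega⟩, ⟨a, hlt⟩, ?_, ?_⟩
  · intro i j hij
    have h : xr (a * b) i = xr (a * b) j := by rw [← hs i, ← hs j, hij]
    exact Fin.ext (xr_inj (a * b) i j i.2 j.2 h)
  · intro k hk
    have h0 := hal ⟨0, by omega⟩
    have h1 := hal ⟨1, by omega⟩
    rw [hk, map_intCast] at h0 h1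
    have h2 : (2 * (√2) ^ b : ℝ) ≠ 0 := by positivity
    have h3 := mul_left_cancel₀ h2 (h0.symm.trans h1)
    have := cos_index_inj (phi (a * b)) (phi_pos _ (by omega)) (phi_lt_pi _) a 0 1
      (by omega) (by omega) h3
    omega
  · rw [hal, hal]
    congr 1
    have e : (phi (a * b) + 2 * Real.pi * ((a : ℕ) : ℝ)) / a
        = (phi (a * b) + 2 * Real.pi * ((0 : ℕ) : ℝ)) / a + 2 * Real.pi := by
      field_simp
      push_cast
      ring
    simp only []
    rw [e, Real.cos_add_two_pi]
  · rw [hs, hs]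
    intro h
    have := xr_inj (a * b) 0 a (by omega) hlt h
    omega

end Vale.Agent.P007
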