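import Vale.Agent.P007.Defs

namespace Vale.Agent.P007

open QuadraticAlgebra Filter

theorem rat_sq_ne {N : ℕ} (hN : ¬ IsSquare N) (x : ℚ) : x * x ≠ N := by
  intro h
  exact hN (Rat.isSquare_natCast_iff.1 ⟨x, h.symm⟩)

theorem not_isSquare_two : ¬ IsSquare (2 : ℕ) := by
  rintro ⟨k, hk⟩
  have : k < 2 := by nlinarith
  interval_cases k <;> omega

instance factL : Fact (∀ r : ℚ, r ^ 2 ≠ 2 + 0 * r) :=
  ⟨fun r h => rat_sq_ne not_isSquare_two r (by rw [← sq, h]; simp)⟩

/-- The field `Q(sqrt 2)`. -/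
abbrev QL : Type := QuadraticAlgebra ℚ 2 0

theorem QL_sq_ne {N : ℕ} (h1 : ¬ IsSquare N) (h2 : ¬ IsSquare (2 * N)) (r : QL) :
    r * r ≠ (N : QL) := by
  intro h
  have hre := congrArg QuadraticAlgebra.re h
  have him := congrArg QuadraticAlgebra.im h
  simp at hre him
  have h0 : r.re * r.im = 0 := by linarith
  rcases mul_eq_zero.1 h0 with h3 | h3
  · refine rat_sq_ne h2 (2 * r.im) ?_
    rw [h3] at hre
    push_cast
    linarith
  · refine rat_sq_ne h1 r.re ?_
    rw [h3] at hre
    linarith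

/-- The field `Q(sqrt 2, sqrt p)`. -/
abbrev QK (p : ℕ) : Type := QuadraticAlgebra QL (p : QL) 0

theorem factK {p : ℕ} (h1 : ¬ IsSquare p) (h2 : ¬ IsSquare (2 * p)) :
    Fact (∀ r : QL, r ^ 2 ≠ (p : QL) + 0 * r) :=
  ⟨fun r h => QL_sq_ne h1 h2 r (by rw [← sq, h]; simp)⟩

theorem QK_sq_ne {p N : ℕ} (h1 : ¬ IsSquare N) (h2 : ¬ IsSquare (2 * N))
    (h3 : ¬ IsSquare (p * N)) (h4 : ¬ IsSquare (2 * (p * N))) (z : QK p) :
    z * z ≠ (N : QK p) := by
  intro h
  have hre := congrArg QuadraticAlgebra.re h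
  have him := congrArg QuadraticAlgebra.im h
  simp at hre him
  have h0 : z.re * z.im = 0 := by
    have : (2 : QL) * (z.re * z.im) = 0 := by linear_combination him
    rcases mul_eq_zero.1 this with h5 | h5
    · exact absurd h5 two_ne_zero
    · exact h5
  rcases mul_eq_zero.1 h0 with h5 | h5
  · refine QL_sq_ne h3 h4 ((p : QL) * z.im) ?_
    rw [h5] at hre
    push_cast
    linear_combination (p : QL) * hre
  · refine QL_sq_ne h1 h2 z.re ?_
    rw [h5] at hre
    linear_combination hre

/-- Extending a ring homomorphism to a quadratic algebra. -/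
def liftHom {R S : Type*} [CommRing R] [CommRing S] (a : R) (φ : R →+* S) (u : S)
    (hu : u * u = φ a) : QuadraticAlgebra R a 0 →+* S where
  toFun z := φ z.re + φ z.im * u
  map_one' := by simp
  map_zero' := by simp
  map_add' z w := by simp; ring
  map_mul' z w := by
    simp
    linear_combination (φ z.im * φ w.im) * (-hu)

/-- A sign. -/
def sgn (b : Bool) : ℝ := if b then 1 else -1

theorem sgn_mul_self (b : Bool) : sgn b * sgn b = 1 := by cases b <;> simp [sgn]

theorem sgn_injective : Function.Injective sgn := by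
  intro a b h
  cases a <;> cases b <;> simp [sgn] at h ⊢ <;> linarith

/-- The two real embeddings of `Q(sqrt 2)`. -/
noncomputable def embL (b : Bool) : QL →+* ℝ :=
  liftHom 2 (Rat.castHom ℝ) (sgn b * √2) (by
    have : √2 * √2 = (2 : ℝ) := Real.mul_self_sqrt (by norm_num)
    have h2 := sgn_mul_self b
    simp only [map_ofNat]
    linear_combination (√2 * √2) * h2 + this)

/-- The four real embeddings of `Q(sqrt 2, sqrt p)`. -/
noncomputable def embK (p : ℕ) (b c : Bool) : QK p →+* ℝ :=
  liftHom (p : QL) (embL b) (sgn c * √p) (by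
    have : √(p : ℝ) * √p = (p : ℝ) := Real.mul_self_sqrt (by positivity)
    have h2 := sgn_mul_self c
    simp only [map_natCast]
    linear_combination (√(p : ℝ) * √p) * h2 + this)

/-- `sqrt 2` in `Q(sqrt 2, sqrt p)`. -/
def rootTwo (p : ℕ) : QK p := ⟨⟨0, 1⟩, 0⟩

/-- `sqrt p` in `Q(sqrt 2, sqrt p)`. -/
def rootP (p : ℕ) : QK p := ⟨0, 1⟩

theorem embK_rootTwo (p : ℕ) (b c : Bool) : embK p b c (rootTwo p) = sgn b * √2 := by
  simp [embK, embL, liftHom, rootTwo]

theorem embK_rootP (p : ℕ) (b c : Bool) : embK p b c (rootP p) = sgn c * √p := by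
  simp [embK, embL, liftHom, rootP]

theorem rootTwo_mul_self (p : ℕ) : rootTwo p * rootTwo p = 2 := by
  ext <;> simp [rootTwo]

theorem rootTwo_ne_int (p : ℕ) (k : ℤ) : rootTwo p ≠ k := by
  intro h
  have := congrArg (fun z : QK p => z.re.im) h
  simp [rootTwo] at this

/-- The ordering of the four embeddings. -/
noncomputable def sigmaK (p : ℕ) (i : Fin 4) : QK p →+* ℝ :=
  embK p (decide ((i : ℕ) < 2)) (decide ((i : ℕ) % 2 = 0))

theorem sigmaK_injective {p : ℕ} (hp : 0 < p) : Function.Injective (sigmaK p) := by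
  intro i j h
  have h1 := congrArg (fun f : QK p →+* ℝ => f (rootTwo p)) h
  have h2 := congrArg (fun f : QK p →+* ℝ => f (rootP p)) h
  simp only [sigmaK, embK_rootTwo, embK_rootP] at h1 h2
  have s2 : √(2 : ℝ) ≠ 0 := by positivity
  have sp : √(p : ℝ) ≠ 0 := by positivity
  have h3 := sgn_injective (mul_right_cancel₀ s2 h1)
  have h4 := sgn_injective (mul_right_cancel₀ sp h2)
  simp only [decide_eq_decide] at h3 h4
  ext
  omega

section
variable (p : ℕ) [Fact (∀ r : QL, r ^ 2 ≠ (p : QL) + 0 * r)]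

instance : CharZero QL := charZero_of_injective_algebraMap (algebraMap ℚ QL).injective

instance : CharZero (QK p) := charZero_of_injective_algebraMap (algebraMap QL (QK p)).injective

instance : NumberField (QK p) where
  to_charZero := inferInstance
  to_finiteDimensional := Module.Finite.trans QL (QK p)

omit [Fact (∀ r : QL, r ^ 2 ≠ (p : QL) + 0 * r)] in
theorem finrank_QK : Module.finrank ℚ (QK p) = 4 := by
  rw [← Module.finrank_mul_finrank ℚ QL (QK p), QuadraticAlgebra.finrank_eq_two,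
    QuadraticAlgebra.finrank_eq_two]

end

/-- The maximal order of a number field, as a subring. -/
def maxOrder (K : Type) [Field K] : Subring K := (integralClosure ℤ K).toSubring

theorem maxOrder_integral (K : Type) [Field K] : ∀ x ∈ maxOrder K, IsIntegral ℤ x :=
  fun _ hx => hx

theorem maxOrder_fullRank (K : Type) [Field K] [NumberField K] :
    Submodule.span ℚ (maxOrder K : Set K) = ⊤ := by
  rw [eq_top_iff]
  intro x _
  have halg : IsAlgebraic ℤ x := by
    have : IsAlgebraic ℚ x := Algebra.IsAlgebraic.isAlgebraic x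
    exact (IsFractionRing.isAlgebraic_iff ℤ ℚ K).2 this
  obtain ⟨y, hy0, hy⟩ := halg.exists_integral_multiple
  have h1 : y • x ∈ Submodule.span ℚ (maxOrder K : Set K) := Submodule.subset_span hy
  have h2 := Submodule.smul_mem _ ((y : ℚ)⁻¹) h1
  have hy1 : (y : ℚ) ≠ 0 := by exact_mod_cast hy0
  have h3 : ((y : ℚ)⁻¹) • (y • x) = x := by
    rw [← Int.cast_smul_eq_zsmul ℚ y x, smul_smul, inv_mul_cancel₀ hy1, one_smul]
  rwa [h3] at h2

/-- The datum `(Q(sqrt 2, sqrt p), maximal order, sigma)`. -/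
noncomputable def quarticDatum (p : ℕ) (hp : 0 < p) (h1 : ¬ IsSquare p) (h2 : ¬ IsSquare (2 * p)) :
    Datum 4 :=
  haveI := factK h1 h2
  { K := QK p
    degree := finrank_QK p
    sigma := sigmaK p
    sigma_injective := sigmaK_injective hp
    O := maxOrder (QK p)
    integral := maxOrder_integral _
    fullRank := maxOrder_fullRank _ }

theorem not_isSquare_of_squarefree {N : ℕ} (h : Squarefree N) (h1 : N ≠ 1) : ¬ IsSquare N := by
  rintro ⟨k, rfl⟩
  have := h k (dvd_refl _)
  rw [Nat.isUnit_iff] at this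
  subst this
  exact h1 rfl

theorem tendsto_discr_of_injective {K : ℕ → Type} [∀ i, Field (K i)] [∀ i, NumberField (K i)]
    (φ : ∀ i, K i →+* ℝ)
    (hinj : Function.Injective (fun i => (φ i).toRatAlgHom.fieldRange)) :
    Tendsto (fun i => (NumberField.discr (K i)).natAbs) atTop atTop := by
  have hfd : ∀ i, FiniteDimensional ℚ (φ i).toRatAlgHom.fieldRange := fun i =>
    LinearEquiv.finiteDimensional (φ i).toRatAlgHom.equivFieldRange.toLinearEquiv
  let Ψ : ℕ → { F : IntermediateField ℚ ℝ // FiniteDimensional ℚ F } :=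
    fun i => ⟨(φ i).toRatAlgHom.fieldRange, hfd i⟩
  have hΨ : Function.Injective Ψ := fun i j h => hinj (congrArg Subtype.val h)
  rw [tendsto_atTop]
  intro b
  rw [← Nat.cofinite_eq_atTop, Filter.eventually_cofinite]
  have hfin := (NumberField.finite_of_discr_bdd ℝ b).preimage hΨ.injOn
  refine hfin.subset fun i hi => ?_
  simp only [Set.mem_ofPred_eq, not_le] at hi
  simp only [Set.mem_preimage, Set.mem_ofPred_eq]
  have : NumberField (φ i).toRatAlgHom.fieldRange := @NumberField.mk _ _ inferInstance (hfd i)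
  have heq := NumberField.discr_eq_discr_of_algEquiv (K i) (φ i).toRatAlgHom.equivFieldRange
  change |NumberField.discr (φ i).toRatAlgHom.fieldRange| ≤ (b : ℤ)
  rw [← heq, Int.abs_eq_natAbs]
  exact_mod_cast hi.le

/-- The odd primes in increasing order. -/
noncomputable def oddPrime (i : ℕ) : ℕ := Nat.nth Nat.Prime (i + 1)

theorem oddPrime_prime (i : ℕ) : (oddPrime i).Prime := Nat.prime_nth_prime _

theorem oddPrime_injective : Function.Injective oddPrime := by
  intro i j h
  have := (Nat.nth_injective Nat.infinite_setOfPred_prime) h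
  omega

theorem oddPrime_ne_two (i : ℕ) : oddPrime i ≠ 2 := by
  intro h
  have h0 : Nat.nth Nat.Prime 0 = 2 := Nat.nth_prime_zero_eq_two
  have := (Nat.nth_injective Nat.infinite_setOfPred_prime) (h.trans h0.symm)
  omega

theorem nonsquares {p : ℕ} (hp : p.Prime) (hp2 : p ≠ 2) : ¬ IsSquare p ∧ ¬ IsSquare (2 * p) := by
  have c2p : Nat.Coprime 2 p := (Nat.coprime_primes Nat.prime_two hp).2 (Ne.symm hp2)
  refine ⟨not_isSquare_of_squarefree hp.prime.squarefree hp.one_lt.ne', ?_⟩
  refine not_isSquare_of_squarefree ?_ ?_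
  · exact (Nat.squarefree_mul_iff).2 ⟨c2p, Nat.prime_two.prime.squarefree, hp.prime.squarefree⟩
  · have := hp.one_lt
    omega

theorem nonsquares' {p q : ℕ} (hp : p.Prime) (hp2 : p ≠ 2) (hq : q.Prime) (hq2 : q ≠ 2)
    (hpq : p ≠ q) : ¬ IsSquare (p * q) ∧ ¬ IsSquare (2 * (p * q)) := by
  have c2p : Nat.Coprime 2 p := (Nat.coprime_primes Nat.prime_two hp).2 (Ne.symm hp2)
  have c2q : Nat.Coprime 2 q := (Nat.coprime_primes Nat.prime_two hq).2 (Ne.symm hq2)
  have cpq : Nat.Coprime p q := (Nat.coprime_primes hp hq).2 hpq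
  have sf : Squarefree (p * q) :=
    (Nat.squarefree_mul_iff).2 ⟨cpq, hp.prime.squarefree, hq.prime.squarefree⟩
  have h1 := hp.one_lt
  have h2 := hq.one_lt
  have h3 : 1 < p * q := by nlinarith
  refine ⟨not_isSquare_of_squarefree sf h3.ne', ?_⟩
  refine not_isSquare_of_squarefree ?_ (by omega)
  exact (Nat.squarefree_mul_iff).2 ⟨Nat.Coprime.mul_right c2p c2q, Nat.prime_two.prime.squarefree, sf⟩

end Vale.Agent.P007
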