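import Vale.Agent.P007.Trap

open MeasureTheory Filter Topology

namespace Vale.Agent.P007

variable {n : ℕ}

theorem isOpenPosMeasure_of_invariant {m : Measure (X n)} (hm : IsInvariantProbability m) :
    m.IsOpenPosMeasure := by
  obtain ⟨hprob, hinv⟩ := hm
  refine ⟨fun V hV hne h0 => ?_⟩
  obtain ⟨x0, hx0⟩ := hne
  obtain ⟨g0, rfl⟩ := mk_surjective x0
  have hopen : ∀ h : SLR n, IsOpen ((fun x : X n => x.act h) ⁻¹' V) :=
    fun h => hV.preimage (continuous_act h)
  have hnull : ∀ h : SLR n, m ((fun x : X n => x.act h) ⁻¹' V) = 0 := by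
    intro h
    rw [← Measure.map_apply (continuous_act h).measurable hV.measurableSet, hinv h, h0]
  obtain ⟨T, hT, hTU⟩ := TopologicalSpace.isOpen_iUnion_countable _ hopen
  have hcover : (⋃ h : SLR n, (fun x : X n => x.act h) ⁻¹' V) = Set.univ := by
    refine Set.eq_univ_of_forall fun x => ?_
    obtain ⟨g, rfl⟩ := mk_surjective x
    refine Set.mem_iUnion.2 ⟨g⁻¹ * g0, ?_⟩
    simpa using hx0
  have : m Set.univ = 0 := by
    rw [← hcover, ← hTU]
    exact (measure_biUnion_null_iff hT).2 fun h _ => hnull h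
  rw [measure_univ] at this
  exact one_ne_zero this

/-- The open set of `X_n` avoided by trapped packets. -/
def avoid (n : ℕ) (C : ℝ) : Set (X n) := X.coset '' nbhd n C

theorem isOpen_avoid (C : ℝ) : IsOpen (avoid n C) :=
  isOpenQuotientMap_mk.isOpenMap _ (isOpen_nbhd C)

theorem mk_one_mem_avoid (C : ℝ) : X.coset 1 ∈ avoid n C := ⟨1, one_mem_nbhd C, rfl⟩

theorem not_mem_avoid {C : ℝ} {dd : Fin n → ℝ} (hdd : ∀ j, |dd j| ≤ C) {j : Fin n}
    (hj : ∀ k : ℤ, dd j ≠ k) {g : SLR n} (hst : Stable dd (rowLattice g)) :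
    X.coset g ∉ avoid n C := by
  rintro ⟨w, hw, hwg⟩
  obtain ⟨γ, hγ, rfl⟩ := mk_eq_mk_iff.1 hwg
  rw [← rowLattice_mul_of_mem hγ g] at hst
  obtain ⟨k, hk⟩ := integer_of_stable hw hdd hst j
  exact hj k hk

theorem stable_of_mem_packet (d : Datum n) {a : d.K} (ha : a ∈ d.O) {S : Set (X n)}
    (hS : S ∈ d.packet) {x : X n} (hx : x ∈ S) :
    ∃ g : SLR n, X.coset g = x ∧ Stable (fun j => d.sigma j a) (rowLattice g) := by
  obtain ⟨I, -, hI, -, w, -, rfl⟩ := hS
  obtain ⟨u, -, g, hg, hL⟩ := hx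
  refine ⟨g, hg, ?_⟩
  rw [hL]
  exact (((stable_sigmaLattice d hI ha).scale _).scale _).scale _

theorem orbitMeasure_avoid (d : Datum n) {C : ℝ} {a : d.K} (ha : a ∈ d.O)
    (haZ : ∀ k : ℤ, a ≠ k) (hC : ∀ j, |d.sigma j a| ≤ C) [NeZero n] {S : Set (X n)}
    (hS : S ∈ d.packet) : orbitMeasure S (avoid n C) = 0 := by
  unfold orbitMeasure
  split_ifs with h
  · rw [Measure.map_apply (continuous_orbitMap _).measurable (isOpen_avoid C).measurableSet]
    have hx : h.choose.1 ∈ S := h.choose_spec.1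
    obtain ⟨g, hg, hst⟩ := stable_of_mem_packet d ha hS hx
    have : (fun v : Fin (n - 1) → ℝ => h.choose.1.act (diagExp (extend v))) ⁻¹' avoid n C = ∅ := by
      refine Set.eq_empty_of_forall_notMem fun v hv => ?_
      rw [Set.mem_preimage, ← hg, act_mk] at hv
      refine not_mem_avoid (dd := fun j => d.sigma j a) hC (j := 0) ?_ ?_ hv
      · intro k hk
        apply haZ k
        apply (d.sigma 0).injective
        rw [hk]
        simp
      · rw [rowLattice_mul_diagExp g (sum_extend v)]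
        exact hst.scale _
    rw [this]
    simp
  · simp

theorem packetMeasure_avoid (d : Datum n) {C : ℝ} {a : d.K} (ha : a ∈ d.O)
    (haZ : ∀ k : ℤ, a ≠ k) (hC : ∀ j, |d.sigma j a| ≤ C) [NeZero n] :
    d.packetMeasure (avoid n C) = 0 := by
  unfold Datum.packetMeasure Datum.packetSum
  rw [Measure.smul_apply, Measure.sum_apply _ (isOpen_avoid C).measurableSet]
  simp [orbitMeasure_avoid d ha haZ hC]

theorem exists_test_function (C : ℝ) {m : Measure (X n)} (hm : IsInvariantProbability m) :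
    ∃ f : X n → ℝ, Continuous f ∧ HasCompactSupport f ∧ (∀ x, x ∉ avoid n C → f x = 0) ∧
      0 < ∫ x, f x ∂m := by
  have hpos := isOpenPosMeasure_of_invariant hm
  have hprob := hm.1
  obtain ⟨f, hf1, hf0, hfc, hf01⟩ := exists_continuous_one_zero_of_isCompact
    (s := {X.coset (1 : SLR n)}) (t := (avoid n C)ᶜ) isCompact_singleton
    (isOpen_avoid C).isClosed_compl (by simpa using mk_one_mem_avoid C)
  refine ⟨f, f.continuous, hfc, fun x hx => hf0 hx, ?_⟩
  refine f.continuous.integral_pos_of_hasCompactSupport_nonneg_nonzero hfc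
    (fun x => (hf01 x).1) (x := X.coset 1) ?_
  rw [hf1 (Set.mem_singleton _)]
  simp

theorem integral_packetMeasure_eq_zero (d : Datum n) {C : ℝ} {a : d.K} (ha : a ∈ d.O)
    (haZ : ∀ k : ℤ, a ≠ k) (hC : ∀ j, |d.sigma j a| ≤ C) {f : X n → ℝ}
    (hf : ∀ x, x ∉ avoid n C → f x = 0) : ∫ x, f x ∂d.packetMeasure = 0 := by
  have hn : NeZero n := ⟨by
    have := d.degree
    have h2 : 0 < Module.finrank ℚ d.K := Module.finrank_pos
    omega⟩
  refine integral_eq_zero_of_ae ?_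
  have h0 := packetMeasure_avoid d ha haZ hC
  refine (measure_eq_zero_iff_ae_notMem.1 h0).mono fun x hx => hf x hx

theorem not_weaklyConverges_of_ae (C : ℝ) {m : Measure (X n)} (hm : IsInvariantProbability m)
    (mu : ℕ → Measure (X n)) (h : ∃ᶠ i in atTop, ∀ᵐ x ∂(mu i), x ∉ avoid n C) :
    ¬ WeaklyConverges mu m := by
  rintro ⟨hconv, -⟩
  obtain ⟨f, hfc, hfs, hf0, hfpos⟩ := exists_test_function C hm
  have h1 := hconv f hfc hfs
  have h2 : ∀ᶠ i in atTop, 0 < ∫ x, f x ∂(mu i) := h1.eventually (lt_mem_nhds hfpos)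
  obtain ⟨i, hi0, hi⟩ := (h.and_eventually h2).exists
  rw [integral_eq_zero_of_ae (hi0.mono fun x hx => hf0 x hx)] at hi
  exact lt_irrefl _ hi

theorem not_mem_avoid_of_mem_packet (d : Datum n) {C : ℝ} {a : d.K} (ha : a ∈ d.O)
    (haZ : ∀ k : ℤ, a ≠ k) (hC : ∀ j, |d.sigma j a| ≤ C) {S : Set (X n)}
    (hS : S ∈ d.packet) {x : X n} (hx : x ∈ S) : x ∉ avoid n C := by
  have hn : NeZero n := ⟨by
    have := d.degree
    have h2 : 0 < Module.finrank ℚ d.K := Module.finrank_pos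
    omega⟩
  obtain ⟨g, rfl, hst⟩ := stable_of_mem_packet d ha hS hx
  refine not_mem_avoid (dd := fun j => d.sigma j a) hC (j := 0) ?_ hst
  intro k hk
  apply haZ k
  apply (d.sigma 0).injective
  rw [hk]
  simp

theorem not_weaklyConverges (d : ℕ → Datum n) (C : ℝ)
    (h : ∃ᶠ i in atTop, ∃ a ∈ (d i).O, (∀ k : ℤ, a ≠ k) ∧ ∀ j, |(d i).sigma j a| ≤ C)
    {m : Measure (X n)} (hm : IsInvariantProbability m) :
    ¬ WeaklyConverges (fun i => (d i).packetMeasure) m := by
  rintro ⟨hconv, -⟩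
  obtain ⟨f, hfc, hfs, hf0, hfpos⟩ := exists_test_function C hm
  have h1 := hconv f hfc hfs
  have h2 : ∀ᶠ i in atTop, 0 < ∫ x, f x ∂(d i).packetMeasure := h1.eventually (lt_mem_nhds hfpos)
  obtain ⟨i, ⟨a, ha, haZ, hC⟩, hi⟩ := (h.and_eventually h2).exists
  rw [integral_packetMeasure_eq_zero (d i) ha haZ hC hf0] at hi
  exact lt_irrefl _ hi

end Vale.Agent.P007
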