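import Vale.Agent.P007.Defs

namespace Vale.Agent.P007

/-- The same field and the same ordered embeddings, with another order `O`. -/
def Datum.withOrder {n : ℕ} (d : Datum n) (O : Subring d.K) (h1 : ∀ x ∈ O, IsIntegral ℤ x)
    (h2 : Submodule.span ℚ (O : Set d.K) = ⊤) : Datum n :=
  { d with O := O, integral := h1, fullRank := h2 }

end Vale.Agent.P007
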