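import Vale.Agent.P007.Orders
import Vale.Agent.P007.Necessary
import Vale.Agent.P007.Fields
import Vale.Agent.P007.WithOrder
import Vale.Agent.P007.DicksonField

namespace Vale.Agent.P007

open Filter MeasureTheory

theorem exists_orders_of_field {n : ℕ} (K : Type) [Field K] [NumberField K]
    (s : Fin n → K →+* ℝ) (hdeg : Module.finrank ℚ K = n) (hinj : Function.Injective s)
    (al th : K) (hal : IsIntegral ℤ al) (hth : IsIntegral ℤ th) (hZ : ∀ k : ℤ, al ≠ k)
    (i j : Fin n) (h1 : s i al = s j al) (h2 : s i th ≠ s j th) :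
    ∃ (d : Datum n) (O : ℕ → Subring d.K) (hi : ∀ N, ∀ x ∈ O N, IsIntegral ℤ x)
      (hf : ∀ N, Submodule.span ℚ (O N : Set d.K) = ⊤),
      Tendsto (fun N => (d.withOrder (O N) (hi N) (hf N)).absDisc) atTop atTop ∧
      ∃ C : ℝ, ∀ N, ∃ a ∈ (d.withOrder (O N) (hi N) (hf N)).O, (∀ k : ℤ, a ≠ k) ∧
        ∀ l, |(d.withOrder (O N) (hi N) (hf N)).sigma l a| ≤ C := by
  obtain ⟨lam, hl1, hl0⟩ := exists_functional (s i) (s j) h1 h2
  obtain ⟨D, hDpos, hD⟩ := exists_denominator lam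
  obtain ⟨z0, hz0⟩ := hD th hth
  have hz0ne : z0 ≠ 0 := by
    rintro rfl
    have hD0 : (D : ℚ) ≠ 0 := by exact_mod_cast hDpos.ne'
    simp only [Int.cast_zero, mul_eq_zero] at hz0
    rcases hz0 with h | h
    · exact hD0 h
    · exact hl1 h
  have hfpos : ∀ N : ℕ, 0 < (N + 1) * z0.natAbs :=
    fun N => Nat.mul_pos (Nat.succ_pos N) (Int.natAbs_pos.2 hz0ne)
  let d : Datum n :=
    { K := K
      degree := hdeg
      sigma := s
      sigma_injective := hinj
      O := maxOrder K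
      integral := maxOrder_integral K
      fullRank := maxOrder_fullRank K }
  refine ⟨d, fun N => subOrder al hal ((N + 1) * z0.natAbs),
    fun N => subOrder_integral al hal _, fun N => subOrder_fullRank al hal (hfpos N), ?_,
    ∑ l, |s l al|, fun N => ⟨al, mem_subOrder_self al hal _, hZ, fun l => ?_⟩⟩
  · refine tendsto_atTop_mono (fun N => ?_) tendsto_id
    have h3 := le_relIndex_subOrder hal hth lam hl0 D hD z0 hz0 hz0ne (N + 1) (Nat.succ_pos N)
    have h4 : 1 ≤ (NumberField.discr K).natAbs :=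
      Nat.one_le_iff_ne_zero.2 (Int.natAbs_ne_zero.2 (NumberField.discr_ne_zero K))
    change N ≤ (NumberField.discr K).natAbs *
      ((subOrder al hal ((N + 1) * z0.natAbs)).toAddSubgroup.relIndex
        (integralClosure ℤ K).toSubring.toAddSubgroup) ^ 2
    nlinarith
  · exact Finset.single_le_sum (f := fun l => |s l al|) (fun l _ => abs_nonneg _) (Finset.mem_univ l)

theorem exists_orders (a b : ℕ) (ha : 2 ≤ a) (hb : 2 ≤ b) :
    ∃ (d : Datum (a * b)) (O : ℕ → Subring d.K) (hi : ∀ N, ∀ x ∈ O N, IsIntegral ℤ x)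
      (hf : ∀ N, Submodule.span ℚ (O N : Set d.K) = ⊤),
      Tendsto (fun N => (d.withOrder (O N) (hi N) (hf N)).absDisc) atTop atTop ∧
      ∃ C : ℝ, ∀ N, ∃ a ∈ (d.withOrder (O N) (hi N) (hf N)).O, (∀ k : ℤ, a ≠ k) ∧
        ∀ l, |(d.withOrder (O N) (hi N) (hf N)).sigma l a| ≤ C := by
  obtain ⟨K, _, _, s, al, th, hdeg, hinj, hal, hth, hZ, i, j, h1, h2⟩ := exists_field a b ha hb
  exact exists_orders_of_field K s hdeg hinj al th hal hth hZ i j h1 h2

end Vale.Agent.P007
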