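import Vale.Agent.P007.Necessary

namespace Vale.Agent.P007

open MeasureTheory Filter Topology

theorem counterexample_conclusion {n : ℕ} (d : ℕ → Datum n) (C : ℝ)
    (h : ∀ i, ∃ a ∈ (d i).O, (∀ k : ℤ, a ≠ k) ∧ ∀ j, |(d i).sigma j a| ≤ C)
    (m : Measure (X n)) (hm : IsInvariantProbability m) :
    (∀ φ : ℕ → ℕ, ¬ WeaklyConverges (fun i => (d (φ i)).packetMeasure) m) ∧
    (∀ (φ : ℕ → ℕ) (mu : ℕ → Measure (X n)),
      (∀ i, ∀ᵐ x ∂(mu i), ∃ S ∈ (d (φ i)).packet, x ∈ S) → ¬ WeaklyConverges mu m) ∧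
    ∃ f : X n → ℝ, Continuous f ∧ HasCompactSupport f ∧ 0 < ∫ x, f x ∂m ∧
      (∀ i, ∫ x, f x ∂(d i).packetMeasure = 0) ∧
      ∀ i, ∀ S ∈ (d i).packet, ∀ x ∈ S, f x = 0 := by
  refine ⟨fun φ => ?_, fun φ mu hmu => ?_, ?_⟩
  · exact not_weaklyConverges (fun i => d (φ i)) C (Frequently.of_forall fun i => h (φ i)) hm
  · refine not_weaklyConverges_of_ae C hm mu (Frequently.of_forall fun i => ?_)
    refine (hmu i).mono fun x hx => ?_
    obtain ⟨S, hS, hxS⟩ := hx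
    obtain ⟨a, ha, haZ, hC⟩ := h (φ i)
    exact not_mem_avoid_of_mem_packet (d (φ i)) ha haZ hC hS hxS
  · obtain ⟨f, hfc, hfs, hf0, hfpos⟩ := exists_test_function C hm
    refine ⟨f, hfc, hfs, hfpos, fun i => ?_, fun i S hS x hx => ?_⟩
    · obtain ⟨a, ha, haZ, hC⟩ := h i
      exact integral_packetMeasure_eq_zero (d i) ha haZ hC hf0
    · obtain ⟨a, ha, haZ, hC⟩ := h i
      exact hf0 _ (not_mem_avoid_of_mem_packet (d i) ha haZ hC hS hx)

end Vale.Agent.P007
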