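import Mathlib

open MeasureTheory Filter Topology

namespace Vale.Agent.P007

/-- The group `SL_n(R)`. -/
abbrev SLR (n : ℕ) : Type := Matrix.SpecialLinearGroup (Fin n) ℝ

/-- The subgroup `SL_n(Z)` of `SL_n(R)`. -/
def SLZ (n : ℕ) : Subgroup (SLR n) :=
  (Matrix.SpecialLinearGroup.map (Int.castRingHom ℝ)).range

/-- `X_n = SL_n(Z) \ SL_n(R)`: the orbit space of left multiplication by `SL_n(Z)`. -/
def X (n : ℕ) : Type := MulAction.orbitRel.Quotient (SLZ n) (SLR n)

/-- The class `SL_n(Z) g`. -/
def X.coset {n : ℕ} (g : SLR n) : X n := Quotient.mk _ g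

/-- The quotient topology on `X_n`. -/
instance (n : ℕ) : TopologicalSpace (X n) := TopologicalSpace.coinduced X.coset inferInstance

/-- The Borel sigma-algebra on `X_n`. -/
instance (n : ℕ) : MeasurableSpace (X n) := borel (X n)

instance (n : ℕ) : BorelSpace (X n) := ⟨rfl⟩

/-- The right action of `SL_n(R)` on `X_n`: `(SL_n(Z) g) h = SL_n(Z) (g h)`. -/
def X.act {n : ℕ} (x : X n) (h : SLR n) : X n :=
  Quotient.map (fun g => g * h)
    (by
      rintro a b ⟨γ, rfl⟩
      exact ⟨γ, by simp [mul_assoc, Subgroup.smul_def]⟩) x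

/-- The lattice `Z^n g` spanned by the rows of `g`. -/
def rowLattice {n : ℕ} (g : SLR n) : Submodule ℤ (Fin n → ℝ) :=
  Submodule.span ℤ (Set.range fun i : Fin n => (g : Matrix (Fin n) (Fin n) ℝ) i)

/-- The image of a lattice under the diagonal matrix `diag(t_1, ..., t_n)` (row vectors). -/
def scale {n : ℕ} (t : Fin n → ℝ) (L : Submodule ℤ (Fin n → ℝ)) : Submodule ℤ (Fin n → ℝ) :=
  L.map (LinearMap.mulLeft ℤ t)

/-- `(u_1, ..., u_{n-1}) -> (u_1, ..., u_{n-1}, -(u_1 + ... + u_{n-1}))`. -/
def extend {n : ℕ} (v : Fin (n - 1) → ℝ) : Fin n → ℝ :=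
  fun j => if h : (j : ℕ) < n - 1 then v ⟨j, h⟩ else - ∑ k, v k

/-- The element `diag(e^{u_1}, ..., e^{u_n})` of `A_n`, for `u` of sum zero (and `1` otherwise). -/
noncomputable def diagExp {n : ℕ} (u : Fin n → ℝ) : SLR n :=
  if h : ∑ j, u j = 0 then
    ⟨Matrix.diagonal fun j => Real.exp (u j), by
      rw [Matrix.det_diagonal, ← Real.exp_sum, h, Real.exp_zero]⟩
  else 1

/-- A totally real field `K` of degree `n`, an ordering `sigma` of its `n` real embeddings,
and an order `O` of `K`. -/
structure Datum (n : ℕ) : Type 1 where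
  K : Type
  [field : Field K]
  [numberField : NumberField K]
  degree : Module.finrank ℚ K = n
  sigma : Fin n → K →+* ℝ
  sigma_injective : Function.Injective sigma
  O : Subring K
  integral : ∀ x ∈ O, IsIntegral ℤ x
  fullRank : Submodule.span ℚ (O : Set K) = ⊤

attribute [instance] Datum.field Datum.numberField

variable {n : ℕ}

/-- `|Disc O| = |Disc K| [O_K : O]^2`. -/
noncomputable def Datum.absDisc (d : Datum n) : ℕ :=
  (NumberField.discr d.K).natAbs *
    (d.O.toAddSubgroup.relIndex (integralClosure ℤ d.K).toSubring.toAddSubgroup) ^ 2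

/-- The `O`-submodule of `K` generated by a finite set `s`. -/
def Datum.genBy (d : Datum n) (s : Finset d.K) : Set d.K :=
  {x | ∃ c : d.K → d.K, (∀ y, c y ∈ d.O) ∧ x = ∑ y ∈ s, c y * y}

/-- Fractional `O`-ideals: nonzero finitely generated `O`-submodules of `K`. -/
def Datum.IsFractional (d : Datum n) (I : Set d.K) : Prop :=
  (∃ s : Finset d.K, I = d.genBy s) ∧ ∃ x ∈ I, x ≠ 0

/-- `I` is proper: `{a in K : a I ⊆ I} = O`. -/
def Datum.IsProper (d : Datum n) (I : Set d.K) : Prop :=
  ∀ a : d.K, (∀ x ∈ I, a * x ∈ I) ↔ a ∈ d.O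

/-- The product `I J`: the additive group generated by the products `x y`. -/
def Datum.idealMul (d : Datum n) (I J : Set d.K) : Set d.K :=
  AddSubgroup.closure {z | ∃ x ∈ I, ∃ y ∈ J, z = x * y}

/-- `I` is invertible: `I J = O` for some fractional `O`-ideal `J`. -/
def Datum.IsInvertible (d : Datum n) (I : Set d.K) : Prop :=
  ∃ J : Set d.K, d.IsFractional J ∧ d.idealMul I J = d.O

/-- The lattice `sigma(I)` in `R^n`, where `sigma(x) = (sigma_1 x, ..., sigma_n x)`. -/
def Datum.sigmaLattice (d : Datum n) (I : Set d.K) : Submodule ℤ (Fin n → ℝ) :=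
  Submodule.span ℤ ((fun x j => d.sigma j x) '' I)

/-- `Lambda_I = covol(sigma(I))^{-1/n} sigma(I)`. -/
noncomputable def Datum.normLattice (d : Datum n) (I : Set d.K) :
    Submodule ℤ (Fin n → ℝ) :=
  scale (fun _ => (ZLattice.covolume (d.sigmaLattice I)) ^ (-(1 : ℝ) / n)) (d.sigmaLattice I)

/-- The `A_n`-orbit of (the point of `X_n` given by) a lattice `L`: all classes `SL_n(Z) g`
with `Z^n g = L diag(e^{u_1}, ..., e^{u_n})` for some `u` of sum zero. -/
def orbitOfLattice (L : Submodule ℤ (Fin n → ℝ)) : Set (X n) :=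
  {x | ∃ u : Fin n → ℝ, ∑ j, u j = 0 ∧ ∃ g : SLR n, X.coset g = x ∧
    rowLattice g = scale (fun j => Real.exp (u j)) L}

/-- The packet: the set of orbits `Lambda_I w A_n`, `I` a proper invertible fractional
`O`-ideal and `w` a diagonal sign matrix. -/
def Datum.packet (d : Datum n) : Set (Set (X n)) :=
  {S | ∃ I : Set d.K, d.IsFractional I ∧ d.IsProper I ∧ d.IsInvertible I ∧
    ∃ w : Fin n → ℝ, (∀ j, w j = 1 ∨ w j = -1) ∧ S = orbitOfLattice (scale w (d.normLattice I))}

/-- `F` is a measurable set of parameters `(u_1, ..., u_{n-1})` that the orbit map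
`u -> x a(u)` of the point `x` of `S` sends bijectively onto `S`. -/
def IsSection (S : Set (X n)) (x : X n) (F : Set (Fin (n - 1) → ℝ)) : Prop :=
  x ∈ S ∧ MeasurableSet F ∧ Set.BijOn (fun v => x.act (diagExp (extend v))) F S

/-- `vol(S) nu_S` for an `A_n`-orbit `S`: the image under the orbit map of Lebesgue measure
`du_1 ... du_{n-1}` restricted to a section `F`. -/
noncomputable def orbitMeasure (S : Set (X n)) : Measure (X n) :=
  open Classical in
  if h : ∃ p : X n × Set (Fin (n - 1) → ℝ), IsSection S p.1 p.2 then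
    Measure.map (fun v => h.choose.1.act (diagExp (extend v))) (volume.restrict h.choose.2)
  else 0

/-- `sum_S vol(S) nu_S` over the orbits `S` of the packet. -/
noncomputable def Datum.packetSum (d : Datum n) : Measure (X n) :=
  Measure.sum fun S : d.packet => orbitMeasure (S : Set (X n))

/-- The packet measure `mu_{O,sigma} = (sum_S vol(S) nu_S) / (sum_S vol(S))`. -/
noncomputable def Datum.packetMeasure (d : Datum n) : Measure (X n) :=
  (d.packetSum Set.univ)⁻¹ • d.packetSum

/-- `m` is an `SL_n(R)`-invariant probability measure on `X_n`. -/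
def IsInvariantProbability (m : Measure (X n)) : Prop :=
  IsProbabilityMeasure m ∧ ∀ h : SLR n, Measure.map (fun x => x.act h) m = m

/-- Weak convergence `mu_i -> m` in the sense of the problem: convergence of integrals of
compactly supported continuous functions, and no escape of mass. -/
def WeaklyConverges (mu : ℕ → Measure (X n)) (m : Measure (X n)) : Prop :=
  (∀ f : X n → ℝ, Continuous f → HasCompactSupport f →
    Tendsto (fun i => ∫ x, f x ∂(mu i)) atTop (𝓝 (∫ x, f x ∂m))) ∧
  ∀ ε : ℝ, 0 < ε → ∃ C : Set (X n), IsCompact C ∧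
    ∀ᶠ i in atTop, ENNReal.ofReal (1 - ε) ≤ mu i C

end Vale.Agent.P007
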