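import Mathlib
import Vale.Agent.P007.DicksonField

/-!
The shifted Dickson polynomials `D_n(X, c) - c` for a general parameter `c`:
evaluation at `2 * sqrt c * cos x`, the `n` distinct real roots, the shape of the coefficients,
the Eisenstein property at a prime `p = c`, and the resulting totally real number fields.
-/

namespace Vale.Agent.P007

open Polynomial

namespace DicksonGeneral

theorem dickson_zero_eq (c : ℤ) : dickson 1 c 0 = C 2 := by
  rw [dickson_zero]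
  simp only [Nat.cast_one, map_ofNat]
  norm_num

theorem dickson_form (c : ℤ) (k : ℕ) :
    ∃ Q : ℤ[X], dickson 1 c (k + 1) = X ^ (k + 1) + C c * Q := by
  induction k with
  | zero => exact ⟨0, by simp⟩
  | succ k ih =>
    obtain ⟨Q, hQ⟩ := ih
    refine ⟨X * Q - dickson 1 c k, ?_⟩
    rw [dickson_add_two, hQ]
    ring

theorem dickson_natDegree_le (c : ℤ) : ∀ k : ℕ, (dickson 1 c k).natDegree ≤ k
  | 0 => by
    rw [dickson_zero_eq]
    simp
  | 1 => by simp
  | k + 2 => by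
    rw [dickson_add_two]
    refine (natDegree_sub_le _ _).trans (max_le ?_ ?_)
    · refine (natDegree_mul_le).trans ?_
      have := dickson_natDegree_le c (k + 1)
      simp only [natDegree_X]
      omega
    · refine (natDegree_C_mul_le _ _).trans ?_
      have := dickson_natDegree_le c k
      omega

theorem dickson_coeff_top (c : ℤ) : ∀ k : ℕ, (dickson 1 c (k + 1)).coeff (k + 1) = 1
  | 0 => by simp
  | k + 1 => by
    rw [dickson_add_two, coeff_sub, coeff_X_mul, coeff_C_mul, dickson_coeff_top c k,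
      coeff_eq_zero_of_natDegree_lt (lt_of_le_of_lt (dickson_natDegree_le c k) (by omega))]
    simp

theorem dickson_coeff_zero_step (c : ℤ) (k : ℕ) :
    (dickson 1 c (k + 2)).coeff 0 = -c * (dickson 1 c k).coeff 0 := by
  rw [dickson_add_two, coeff_sub, coeff_C_mul]
  simp

theorem dickson_coeff_zero_two (c : ℤ) : (dickson 1 c 2).coeff 0 = -2 * c := by
  rw [dickson_coeff_zero_step, dickson_zero_eq, coeff_C_zero]
  ring

theorem dickson_coeff_zero_sq (c : ℤ) (k : ℕ) : c ^ 2 ∣ (dickson 1 c (k + 3)).coeff 0 := by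
  rcases k with _ | k
  · rw [dickson_coeff_zero_step]
    simp
  · rw [show k + 1 + 3 = (k + 2) + 2 by ring, dickson_coeff_zero_step, dickson_coeff_zero_step]
    exact ⟨(dickson 1 c k).coeff 0, by ring⟩

/-- The shifted Dickson polynomial `D_n(X, c) - c`. -/
noncomputable def dG (c : ℤ) (n : ℕ) : ℤ[X] := dickson 1 c n - C c

theorem dG_natDegree_le (c : ℤ) (n : ℕ) : (dG c n).natDegree ≤ n := by
  unfold dG
  refine (natDegree_sub_le _ _).trans (max_le (dickson_natDegree_le c n) ?_)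
  simp

theorem dG_coeff_top (c : ℤ) (k : ℕ) : (dG c (k + 1)).coeff (k + 1) = 1 := by
  unfold dG
  rw [coeff_sub, dickson_coeff_top, coeff_C]
  simp

theorem dG_monic (c : ℤ) (k : ℕ) : (dG c (k + 1)).Monic :=
  monic_of_natDegree_le_of_coeff_eq_one (k + 1) (dG_natDegree_le _ _) (dG_coeff_top c k)

theorem dG_natDegree (c : ℤ) (k : ℕ) : (dG c (k + 1)).natDegree = k + 1 := by
  refine le_antisymm (dG_natDegree_le _ _) ?_
  refine le_natDegree_of_ne_zero ?_
  rw [dG_coeff_top]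
  exact one_ne_zero

theorem dG_coeff_dvd (c : ℤ) (k i : ℕ) (hi : i < k + 1) : c ∣ (dG c (k + 1)).coeff i := by
  obtain ⟨Q, hQ⟩ := dickson_form c k
  unfold dG
  rw [hQ, coeff_sub, coeff_add, coeff_X_pow, if_neg (by omega), coeff_C_mul, coeff_C]
  split_ifs
  · exact ⟨Q.coeff i - 1, by ring⟩
  · exact ⟨Q.coeff i, by ring⟩

theorem dG_coeff_zero (c : ℤ) (n : ℕ) (hn : 2 ≤ n) :
    ∃ u : ℤ, (dG c n).coeff 0 = c * u ∧ (u = -3 ∨ c ∣ u + 1) := by
  unfold dG
  rw [coeff_sub, coeff_C_zero]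
  rcases Nat.lt_or_ge n 3 with h | h
  · obtain rfl : n = 2 := by omega
    exact ⟨-3, by rw [dickson_coeff_zero_two]; ring, Or.inl rfl⟩
  · obtain ⟨k, rfl⟩ : ∃ k, n = k + 3 := ⟨n - 3, by omega⟩
    obtain ⟨w, hw⟩ := dickson_coeff_zero_sq c k
    exact ⟨c * w - 1, by rw [hw]; ring, Or.inr ⟨w, by ring⟩⟩

end DicksonGeneral

open DicksonGeneral

/-- (A) Evaluation of Dickson polynomials at `2 * sqrt c * cos x`. -/
theorem dickson_eval_cos (c : ℝ) (hc : 0 ≤ c) (k : ℕ) (x : ℝ) :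
    (dickson 1 c k).eval (2 * √c * Real.cos x) = 2 * (√c) ^ k * Real.cos (k * x) := by
  induction k using Nat.twoStepInduction with
  | zero =>
    simp
    norm_num
  | one => simp
  | more k ih0 ih1 =>
    rw [dickson_add_two, eval_sub, eval_mul, eval_mul, eval_X, eval_C, ih0, ih1]
    have hs : (√c : ℝ) ^ 2 = c := Real.sq_sqrt hc
    have hcos : Real.cos (((k + 2 : ℕ) : ℝ) * x)
        = 2 * Real.cos x * Real.cos (((k + 1 : ℕ) : ℝ) * x) - Real.cos ((k : ℝ) * x) := by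
      push_cast
      have e1 : ((k : ℝ) + 2) * x = ((k : ℝ) + 1) * x + x := by ring
      have e2 : (k : ℝ) * x = ((k : ℝ) + 1) * x - x := by ring
      rw [e1, e2, Real.cos_add, Real.cos_sub]
      ring
    rw [hcos]
    linear_combination (2 * (√c : ℝ) ^ k * Real.cos ((k : ℝ) * x)) * hs

/-- (C) The shape of the coefficients of `D_n(X, p) - p`. -/
theorem dickson_coeffs (p n : ℕ) (hn : 2 ≤ n) :
    (dickson 1 (p : ℤ) n - C (p : ℤ)).Monic ∧
      (dickson 1 (p : ℤ) n - C (p : ℤ)).natDegree = n ∧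
      (∀ i < n, (p : ℤ) ∣ (dickson 1 (p : ℤ) n - C (p : ℤ)).coeff i) ∧
      ∃ u : ℤ, (dickson 1 (p : ℤ) n - C (p : ℤ)).coeff 0 = p * u ∧
        (u = -3 ∨ (p : ℤ) ∣ u + 1) := by
  obtain ⟨k, rfl⟩ : ∃ k, n = k + 1 := ⟨n - 1, by omega⟩
  exact ⟨dG_monic p k, dG_natDegree p k, fun i hi => dG_coeff_dvd p k i hi,
    dG_coeff_zero p (k + 1) hn⟩

namespace DicksonGeneral

/-- The base angle `arccos (c / (2 * c ^ (n/2)))`. -/
noncomputable def phiG (c n : ℕ) : ℝ := Real.arccos ((c : ℝ) / (2 * (√(c : ℝ)) ^ n))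

/-- The `k`-th real root of `D_n(X, c) - c`. -/
noncomputable def xG (c n k : ℕ) : ℝ :=
  2 * √(c : ℝ) * Real.cos ((phiG c n + 2 * Real.pi * k) / n)

theorem le_sqrt_pow (c n : ℕ) (hc : 1 ≤ c) (hn : 2 ≤ n) : (c : ℝ) ≤ (√(c : ℝ)) ^ n := by
  have hc1 : (1 : ℝ) ≤ c := by exact_mod_cast hc
  have h : (1 : ℝ) ≤ √(c : ℝ) := by
    rw [show (1 : ℝ) = √1 by simp]
    exact Real.sqrt_le_sqrt hc1
  calc (c : ℝ) = (√(c : ℝ)) ^ 2 := (Real.sq_sqrt (by linarith)).symm
    _ ≤ (√(c : ℝ)) ^ n := pow_le_pow_right₀ h hn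

theorem ratio_le_half (c n : ℕ) (hc : 1 ≤ c) (hn : 2 ≤ n) :
    (c : ℝ) / (2 * (√(c : ℝ)) ^ n) ≤ 1 / 2 := by
  have h := le_sqrt_pow c n hc hn
  have hc1 : (1 : ℝ) ≤ c := by exact_mod_cast hc
  rw [div_le_iff₀ (by linarith)]
  linarith

theorem phiG_pos (c n : ℕ) (hc : 1 ≤ c) (hn : 2 ≤ n) : 0 < phiG c n := by
  unfold phiG
  rw [Real.arccos_pos]
  have := ratio_le_half c n hc hn
  linarith

theorem phiG_lt_pi (c n : ℕ) : phiG c n < Real.pi := by
  have h : phiG c n ≤ Real.pi / 2 := by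
    unfold phiG
    rw [Real.arccos_le_pi_div_two]
    positivity
  have := Real.pi_pos
  linarith

theorem cos_phiG (c n : ℕ) (hc : 1 ≤ c) (hn : 2 ≤ n) :
    Real.cos (phiG c n) = (c : ℝ) / (2 * (√(c : ℝ)) ^ n) := by
  unfold phiG
  have := ratio_le_half c n hc hn
  refine Real.cos_arccos ?_ ?_
  · have : (0 : ℝ) ≤ (c : ℝ) / (2 * (√(c : ℝ)) ^ n) := by positivity
    linarith
  · linarith

theorem eval_dickson_xG (c n k m : ℕ) :
    (dickson 1 (c : ℝ) m).eval (xG c n k)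
      = 2 * (√(c : ℝ)) ^ m * Real.cos (m * ((phiG c n + 2 * Real.pi * k) / n)) :=
  dickson_eval_cos _ (Nat.cast_nonneg c) m _

theorem eval_dickson_xG_self (c n k : ℕ) (hc : 1 ≤ c) (hn : 2 ≤ n) :
    (dickson 1 (c : ℝ) n).eval (xG c n k) = c := by
  rw [eval_dickson_xG]
  have hN : (n : ℝ) ≠ 0 := by
    have : n ≠ 0 := by omega
    exact_mod_cast this
  have e : (n : ℝ) * ((phiG c n + 2 * Real.pi * k) / n) = phiG c n + k * (2 * Real.pi) := by
    field_simp
  rw [e, Real.cos_add_nat_mul_two_pi, cos_phiG c n hc hn]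
  have h := le_sqrt_pow c n hc hn
  have hc1 : (1 : ℝ) ≤ c := by exact_mod_cast hc
  have : (√(c : ℝ)) ^ n ≠ 0 := by
    intro h0
    rw [h0] at h
    linarith
  field_simp

theorem xG_inj (c n i j : ℕ) (hc : 1 ≤ c) (hn : 2 ≤ n) (hi : i < n) (hj : j < n)
    (h : xG c n i = xG c n j) : i = j := by
  unfold xG at h
  have hc1 : (0 : ℝ) < c := by exact_mod_cast hc
  have h2 : (2 * √(c : ℝ) : ℝ) ≠ 0 := by positivity
  exact DicksonField.cos_index_inj (phiG c n) (phiG_pos c n hc hn) (phiG_lt_pi c n) n i j hi hj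
    (mul_left_cancel₀ h2 h)

theorem map_dG_real (c n : ℕ) :
    (dG (c : ℤ) n).map (Int.castRingHom ℝ) = dickson 1 (c : ℝ) n - C (c : ℝ) := by
  unfold dG
  rw [Polynomial.map_sub, map_dickson, map_C]
  simp only [eq_intCast, Int.cast_natCast]

theorem eval_map_dG_xG (c n k : ℕ) (hc : 1 ≤ c) (hn : 2 ≤ n) :
    ((dG (c : ℤ) n).map (Int.castRingHom ℝ)).eval (xG c n k) = 0 := by
  rw [map_dG_real, eval_sub, eval_dickson_xG_self c n k hc hn, eval_C]
  simp

theorem eval₂_dG_xG (c n k : ℕ) (hc : 1 ≤ c) (hn : 2 ≤ n) :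
    ((dG (c : ℤ) n).map (Int.castRingHom ℚ)).eval₂ (algebraMap ℚ ℝ) (xG c n k) = 0 := by
  rw [eval₂_map]
  have : (algebraMap ℚ ℝ).comp (Int.castRingHom ℚ) = Int.castRingHom ℝ := RingHom.ext_int _ _
  rw [this, ← eval_map, eval_map_dG_xG c n k hc hn]

theorem dG_eisenstein (p n : ℕ) (hp : p.Prime) (hn : 2 ≤ n) (h3 : n ≠ 2 ∨ p ≠ 3) :
    (dG (p : ℤ) n).IsEisensteinAt (Ideal.span {(p : ℤ)}) := by
  obtain ⟨k, rfl⟩ : ∃ k, n = k + 1 := ⟨n - 1, by omega⟩
  have hpi : Prime (p : ℤ) := Nat.prime_iff_prime_int.1 hp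
  refine ⟨?_, ?_, ?_⟩
  · rw [(dG_monic _ k).leadingCoeff, Ideal.mem_span_singleton]
    exact hpi.not_dvd_one
  · intro i hi
    rw [dG_natDegree] at hi
    rw [Ideal.mem_span_singleton]
    exact dG_coeff_dvd _ k i hi
  · rw [Ideal.span_singleton_pow, Ideal.mem_span_singleton]
    intro hdvd
    have hp0 : (p : ℤ) ≠ 0 := hpi.ne_zero
    rcases Nat.lt_or_ge (k + 1) 3 with h | h
    · obtain rfl : k = 1 := by omega
      have hp3 : p ≠ 3 := by
        rcases h3 with h3 | h3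
        · exact absurd rfl h3
        · exact h3
      have e : (dG (p : ℤ) (1 + 1)).coeff 0 = (p : ℤ) * (-3) := by
        unfold dG
        rw [coeff_sub, coeff_C_zero, dickson_coeff_zero_two]
        ring
      rw [e, sq, mul_dvd_mul_iff_left hp0, Int.dvd_neg] at hdvd
      have h4 : p ∣ 3 := by exact_mod_cast hdvd
      exact hp3 ((Nat.prime_dvd_prime_iff_eq hp Nat.prime_three).1 h4)
    · obtain ⟨m, hm⟩ : ∃ m, k + 1 = m + 3 := ⟨k + 1 - 3, by omega⟩
      obtain ⟨w, hw⟩ := dickson_coeff_zero_sq (p : ℤ) m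
      have e : (dG (p : ℤ) (k + 1)).coeff 0 = (p : ℤ) * (p * w - 1) := by
        unfold dG
        rw [coeff_sub, coeff_C_zero, hm, hw]
        ring
      rw [e, sq, mul_dvd_mul_iff_left hp0] at hdvd
      have h4 : (p : ℤ) ∣ 1 := by
        have h5 : (p : ℤ) ∣ p * w := Dvd.intro _ rfl
        have := dvd_sub h5 hdvd
        simpa using this
      exact hpi.not_dvd_one h4

theorem dG_irreducible (p n : ℕ) (hp : p.Prime) (hn : 2 ≤ n) (h3 : n ≠ 2 ∨ p ≠ 3) :
    Irreducible (dG (p : ℤ) n) := by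
  have hE := dG_eisenstein p n hp hn h3
  obtain ⟨k, rfl⟩ : ∃ k, n = k + 1 := ⟨n - 1, by omega⟩
  have hpi : Prime (p : ℤ) := Nat.prime_iff_prime_int.1 hp
  refine hE.irreducible ?_ (dG_monic _ k).isPrimitive ?_
  · rw [Ideal.span_singleton_prime hpi.ne_zero]
    exact hpi
  · rw [dG_natDegree]
    omega

theorem dG_map_irreducible (p n : ℕ) (hp : p.Prime) (hn : 2 ≤ n) (h3 : n ≠ 2 ∨ p ≠ 3) :
    Irreducible ((dG (p : ℤ) n).map (Int.castRingHom ℚ)) := by
  have hI := dG_irreducible p n hp hn h3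
  obtain ⟨k, rfl⟩ : ∃ k, n = k + 1 := ⟨n - 1, by omega⟩
  exact ((dG_monic _ k).irreducible_iff_irreducible_map_fraction_map (K := ℚ)).1 hI

end DicksonGeneral

open DicksonGeneral

/-- (B) `D_n(X, c) - c` has `n` distinct real roots. -/
theorem dickson_real_roots (c n : ℕ) (hc : 2 ≤ c) (hn : 2 ≤ n) :
    ∃ x : Fin n → ℝ, Function.Injective x ∧
      ∀ k, Polynomial.aeval (x k) (dickson 1 (c : ℤ) n - C (c : ℤ)) = 0 := by
  refine ⟨fun k => xG c n k, ?_, ?_⟩
  · intro i j hij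
    exact Fin.ext (xG_inj c n i j (by omega) hn i.2 j.2 hij)
  · intro k
    have h := eval_map_dG_xG c n k (by omega) hn
    rw [eval_map] at h
    rw [aeval_def]
    exact h

/-- (D) `D_n(X, p) - p` is irreducible over the rationals for `p` prime
(excluding `n = 2, p = 3`, where the polynomial is `X ^ 2 - 9`). -/
theorem dickson_irreducible (p n : ℕ) (hp : p.Prime) (hn : 2 ≤ n) (h3 : n ≠ 2 ∨ p ≠ 3) :
    Irreducible (dickson 1 (p : ℤ) n - C (p : ℤ)) ∧
      Irreducible ((dickson 1 (p : ℤ) n - C (p : ℤ)).map (Int.castRingHom ℚ)) :=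
  ⟨dG_irreducible p n hp hn h3, dG_map_irreducible p n hp hn h3⟩

/-- (E) The number field `Q[X]/(D_n(X,p) - p)` with its `n` real embeddings. -/
theorem exists_dickson_field (p n : ℕ) (hp : p.Prime) (hn : 2 ≤ n) (h3 : n ≠ 2 ∨ p ≠ 3) :
    ∃ (K : Type) (_ : Field K) (_ : NumberField K) (s : Fin n → K →+* ℝ) (th : K),
      Module.finrank ℚ K = n ∧ Function.Injective s ∧ IsIntegral ℤ th ∧
        aeval th (dickson 1 (p : ℤ) n - C (p : ℤ)) = 0 ∧
        ∀ k : Fin n, s k th = 2 * √(p : ℝ) * Real.cos ((phiG p n + 2 * Real.pi * k) / n) := by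
  have hfact : Fact (Irreducible ((dG (p : ℤ) n).map (Int.castRingHom ℚ))) :=
    ⟨dG_map_irreducible p n hp hn h3⟩
  have hne : (dG (p : ℤ) n).map (Int.castRingHom ℚ) ≠ 0 := hfact.out.ne_zero
  have hp1 : 1 ≤ p := hp.one_lt.le
  have hmonic : (dG (p : ℤ) n).Monic := by
    obtain ⟨k, rfl⟩ : ∃ k, n = k + 1 := ⟨n - 1, by omega⟩
    exact dG_monic _ k
  have hdeg : (dG (p : ℤ) n).natDegree = n := by
    obtain ⟨k, rfl⟩ : ∃ k, n = k + 1 := ⟨n - 1, by omega⟩
    exact dG_natDegree _ k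
  have hroot : eval₂ (algebraMap ℤ (AdjoinRoot ((dG (p : ℤ) n).map (Int.castRingHom ℚ))))
      (AdjoinRoot.root ((dG (p : ℤ) n).map (Int.castRingHom ℚ))) (dG (p : ℤ) n) = 0 := by
    have h := AdjoinRoot.eval₂_root ((dG (p : ℤ) n).map (Int.castRingHom ℚ))
    rw [eval₂_map] at h
    have e : algebraMap ℤ (AdjoinRoot ((dG (p : ℤ) n).map (Int.castRingHom ℚ)))
        = (AdjoinRoot.of ((dG (p : ℤ) n).map (Int.castRingHom ℚ))).comp (Int.castRingHom ℚ) :=
      RingHom.ext_int _ _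
    rw [← e] at h
    exact h
  refine ⟨AdjoinRoot ((dG (p : ℤ) n).map (Int.castRingHom ℚ)), inferInstance, inferInstance,
    fun i => AdjoinRoot.lift (algebraMap ℚ ℝ) (xG p n i) (eval₂_dG_xG p n i hp1 hn),
    AdjoinRoot.root _, ?_, ?_, ?_, ?_, ?_⟩
  · have h1 := (AdjoinRoot.powerBasis hne).finrank
    rw [AdjoinRoot.powerBasis_dim, hmonic.natDegree_map, hdeg] at h1
    convert h1
  · intro i j hij
    have h := congrArg (fun f : _ →+* ℝ => f (AdjoinRoot.root _)) hij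
    simp only [AdjoinRoot.lift_root] at h
    exact Fin.ext (xG_inj p n i j hp1 hn i.2 j.2 h)
  · exact ⟨dG (p : ℤ) n, hmonic, hroot⟩
  · rw [aeval_def]
    exact hroot
  · intro i
    exact AdjoinRoot.lift_root _

end Vale.Agent.P007
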