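import Vale.Agent.P007.Tower
import Vale.Agent.P007.DicksonGeneral

namespace Vale.Agent.P007

open NumberField Polynomial Filter

theorem dickson_shape (b : ℕ) (hb : 2 ≤ b) (p : ℕ) (hp : p.Prime) (hp5 : 5 ≤ p) :
    ∃ G : ℤ[X], G.natDegree < b ∧ IsCoprime (G.coeff 0) (p : ℤ) ∧
      ∃ x : Fin b → ℝ, Function.Injective x ∧
        ∀ l, aeval (x l) (Polynomial.X ^ b + C (p : ℤ) * G) = 0 := by
  obtain ⟨hm, hdeg, hdvd, u, hu0, hu⟩ := dickson_coeffs p b hb
  obtain ⟨x, hx, hroot⟩ := dickson_real_roots p b (by omega) hb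
  have hp0 : (p : ℤ) ≠ 0 := by exact_mod_cast hp.ne_zero
  have hge : ∀ i, b ≤ i → (dickson 1 (p : ℤ) b - C (p : ℤ) - Polynomial.X ^ b).coeff i = 0 := by
    intro i hi
    rw [coeff_sub, coeff_X_pow]
    rcases hi.eq_or_lt with rfl | hlt
    · have : (dickson 1 (p : ℤ) b - C (p : ℤ)).coeff b = 1 := by
        have h1 := hm.coeff_natDegree
        rwa [hdeg] at h1
      rw [this]
      simp
    · rw [coeff_eq_zero_of_natDegree_lt (by rw [hdeg]; exact hlt), if_neg hlt.ne']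
      simp
  have hC : C (p : ℤ) ∣ dickson 1 (p : ℤ) b - C (p : ℤ) - Polynomial.X ^ b := by
    rw [C_dvd_iff_dvd_coeff]
    intro i
    rcases Nat.lt_or_ge i b with hi | hi
    · rw [coeff_sub, coeff_X_pow, if_neg hi.ne, sub_zero]
      exact hdvd i hi
    · rw [hge i hi]
      exact dvd_zero _
  obtain ⟨G, hG⟩ := hC
  have hF : Polynomial.X ^ b + C (p : ℤ) * G = dickson 1 (p : ℤ) b - C (p : ℤ) := by
    rw [← hG]
    ring
  have hcoeff : ∀ i, (p : ℤ) * G.coeff i
      = (dickson 1 (p : ℤ) b - C (p : ℤ) - Polynomial.X ^ b).coeff i := by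
    intro i
    rw [hG, coeff_C_mul]
  refine ⟨G, ?_, ?_, x, hx, fun l => by rw [hF]; exact hroot l⟩
  · by_cases hG0 : G = 0
    · rw [hG0]
      simp
      omega
    · rw [natDegree_lt_iff_degree_lt hG0, degree_lt_iff_coeff_zero]
      intro i hi
      have := hcoeff i
      rw [hge i hi] at this
      exact (mul_eq_zero.1 this).resolve_left hp0
  · have h0 : G.coeff 0 = u := by
      have := hcoeff 0
      rw [coeff_sub, coeff_X_pow, if_neg (by omega), sub_zero, hu0] at this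
      exact mul_left_cancel₀ hp0 this
    rw [h0]
    rcases hu with rfl | ⟨w, hw⟩
    · have h3 : Nat.Coprime 3 p := (Nat.coprime_primes Nat.prime_three hp).2 (by omega)
      have h4 : IsCoprime ((3 : ℕ) : ℤ) (p : ℤ) := Nat.isCoprime_iff_coprime.2 h3
      simpa using h4.neg_left
    · exact ⟨-1, w, by linarith⟩

theorem exists_maximal_seq (a b : ℕ) (ha : 2 ≤ a) (hb : 2 ≤ b) :
    ∃ d : ℕ → Datum (a * b), (∀ i, ∀ x : (d i).K, x ∈ (d i).O ↔ IsIntegral ℤ x) ∧
      Tendsto (fun i => (d i).absDisc) atTop atTop ∧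
      ∃ C : ℝ, ∀ i, ∃ al ∈ (d i).O, (∀ k : ℤ, al ≠ k) ∧ ∀ l, |(d i).sigma l al| ≤ C :=
  exists_maximal_seq_of a b hb (exists_totallyReal a ha) (dickson_shape b hb)

end Vale.Agent.P007
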