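import Vale.Agent.P007.Fields

namespace Vale.Agent.P007

open Filter

section
variable {K : Type} [Field K]

/-- The order `Z[al] + f O_K`. -/
def subOrder (al : K) (hal : IsIntegral ℤ al) (f : ℕ) : Subring K where
  carrier := {x | ∃ y ∈ Algebra.adjoin ℤ {al}, ∃ r ∈ integralClosure ℤ K, x = y + f • r}
  one_mem' := ⟨1, one_mem _, 0, zero_mem _, by simp⟩
  zero_mem' := ⟨0, zero_mem _, 0, zero_mem _, by simp⟩
  add_mem' := by
    rintro _ _ ⟨y, hy, r, hr, rfl⟩ ⟨y', hy', r', hr', rfl⟩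
    exact ⟨y + y', add_mem hy hy', r + r', add_mem hr hr', by rw [smul_add]; ring⟩
  neg_mem' := by
    rintro _ ⟨y, hy, r, hr, rfl⟩
    exact ⟨-y, neg_mem hy, -r, neg_mem hr, by rw [smul_neg]; ring⟩
  mul_mem' := by
    rintro _ _ ⟨y, hy, r, hr, rfl⟩ ⟨y', hy', r', hr', rfl⟩
    have hle : Algebra.adjoin ℤ {al} ≤ integralClosure ℤ K :=
      Algebra.adjoin_le (Set.singleton_subset_iff.2 hal)
    refine ⟨y * y', mul_mem hy hy', y * r' + r * y' + f • (r * r'), ?_, ?_⟩
    · exact add_mem (add_mem (mul_mem (hle hy) hr') (mul_mem hr (hle hy')))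
        (nsmul_mem (mul_mem hr hr') f)
    · simp only [nsmul_eq_mul]
      ring

theorem adjoin_le_integralClosure {al : K} (hal : IsIntegral ℤ al) :
    Algebra.adjoin ℤ {al} ≤ integralClosure ℤ K :=
  Algebra.adjoin_le (Set.singleton_subset_iff.2 hal)

theorem subOrder_integral (al : K) (hal : IsIntegral ℤ al) (f : ℕ) :
    ∀ x ∈ subOrder al hal f, IsIntegral ℤ x := by
  rintro _ ⟨y, hy, r, hr, rfl⟩
  exact add_mem (adjoin_le_integralClosure hal hy) (nsmul_mem hr f)

theorem mem_subOrder_self (al : K) (hal : IsIntegral ℤ al) (f : ℕ) : al ∈ subOrder al hal f :=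
  ⟨al, Algebra.self_mem_adjoin_singleton ℤ al, 0, zero_mem _, by simp⟩

theorem subOrder_fullRank [NumberField K] (al : K) (hal : IsIntegral ℤ al) {f : ℕ} (hf : 0 < f) :
    Submodule.span ℚ (subOrder al hal f : Set K) = ⊤ := by
  rw [eq_top_iff, ← maxOrder_fullRank K, Submodule.span_le]
  intro r hr
  have h1 : f • r ∈ Submodule.span ℚ (subOrder al hal f : Set K) :=
    Submodule.subset_span ⟨0, zero_mem _, r, hr, by simp⟩
  have h2 := Submodule.smul_mem _ ((f : ℚ)⁻¹) h1
  have hf1 : (f : ℚ) ≠ 0 := by exact_mod_cast hf.ne'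
  have h3 : ((f : ℚ)⁻¹) • (f • r) = r := by
    rw [← Nat.cast_smul_eq_nsmul ℚ f r, smul_smul, inv_mul_cancel₀ hf1, one_smul]
  rwa [h3] at h2

theorem exists_functional {al th : K} (s s' : K →+* ℝ) (h1 : s al = s' al)
    (h2 : s th ≠ s' th) [CharZero K] :
    ∃ lam : K →ₗ[ℚ] ℚ, lam th ≠ 0 ∧ ∀ y ∈ Algebra.adjoin ℤ {al}, lam y = 0 := by
  have hA : ∀ y ∈ Algebra.adjoin ℤ {al}, s y = s' y := by
    intro y hy
    induction hy using Algebra.adjoin_induction with
    | mem x hx =>
      rw [Set.mem_singleton_iff] at hx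
      rw [hx, h1]
    | algebraMap r => simp
    | add x y _ _ hx hy => rw [map_add, map_add, hx, hy]
    | mul x y _ _ hx hy => rw [map_mul, map_mul, hx, hy]
  have hP : ∀ x ∈ Submodule.span ℚ (Algebra.adjoin ℤ {al} : Set K), s x = s' x := by
    intro x hx
    induction hx using Submodule.span_induction with
    | mem x hx => exact hA x hx
    | zero => simp
    | add x y _ _ hx hy => rw [map_add, map_add, hx, hy]
    | smul q x _ hx => rw [map_rat_smul, map_rat_smul, hx]
  have hth : th ∉ Submodule.span ℚ (Algebra.adjoin ℤ {al} : Set K) := fun h => h2 (hP th h)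
  obtain ⟨lam, hl1, hl2⟩ := Submodule.exists_le_ker_of_notMem hth
  exact ⟨lam, hl1, fun y hy => hl2 (Submodule.subset_span hy)⟩

theorem integralClosure_fg [NumberField K] :
    (Subalgebra.toSubmodule (integralClosure ℤ K)).FG := by
  have : Module.Finite ℤ (integralClosure ℤ K) := IsIntegralClosure.finite ℤ ℚ K _
  exact Module.Finite.iff_fg.1 this

theorem exists_denominator [NumberField K] (lam : K →ₗ[ℚ] ℚ) :
    ∃ D : ℕ, 0 < D ∧ ∀ r ∈ integralClosure ℤ K, ∃ z : ℤ, (D : ℚ) * lam r = z := by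
  obtain ⟨S, hS⟩ := integralClosure_fg (K := K)
  refine ⟨∏ w ∈ S, (lam w).den, Finset.prod_pos fun w _ => (lam w).den_pos, fun r hr => ?_⟩
  have key : ∀ r ∈ Submodule.span ℤ (S : Set K),
      ∃ z : ℤ, ((∏ w ∈ S, (lam w).den : ℕ) : ℚ) * lam r = z := by
    intro r hr'
    induction hr' using Submodule.span_induction with
    | mem w hw =>
      obtain ⟨c, hc⟩ := Finset.dvd_prod_of_mem (fun w => (lam w).den) hw
      refine ⟨c * (lam w).num, ?_⟩
      rw [hc]
      push_cast
      have := Rat.mul_den_eq_num (lam w)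
      linear_combination (c : ℚ) * this
    | zero => exact ⟨0, by simp⟩
    | add x y _ _ hx hy =>
      obtain ⟨z1, h1⟩ := hx
      obtain ⟨z2, h2⟩ := hy
      exact ⟨z1 + z2, by rw [map_add, mul_add, h1, h2]; push_cast; ring⟩
    | smul k x _ hx =>
      obtain ⟨z1, h1⟩ := hx
      refine ⟨k * z1, ?_⟩
      rw [← Int.cast_smul_eq_zsmul ℚ k x, map_smul, smul_eq_mul, Int.cast_mul, ← h1]
      ring
  apply key
  rw [hS]
  exact hr

theorem finite_quotient_subOrder [NumberField K] (al : K) (hal : IsIntegral ℤ al) {f : ℕ}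
    (hf : 0 < f) :
    Finite ((integralClosure ℤ K).toSubring.toAddSubgroup ⧸
      ((subOrder al hal f).toAddSubgroup.addSubgroupOf
        (integralClosure ℤ K).toSubring.toAddSubgroup)) := by
  have hfg : AddGroup.FG (integralClosure ℤ K).toSubring.toAddSubgroup := by
    rw [AddGroup.fg_iff_addSubgroup_fg]
    have := (Submodule.fg_iff_addSubgroup_fg _).1 (integralClosure_fg (K := K))
    exact this
  refine AddCommGroup.finite_of_fg_isAddTorsion _ ?_
  intro x
  induction x using QuotientAddGroup.induction_on with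
  | H g =>
    rw [isOfFinAddOrder_iff_nsmul_eq_zero]
    refine ⟨f, hf, ?_⟩
    rw [← QuotientAddGroup.mk_nsmul, QuotientAddGroup.eq_zero_iff]
    exact ⟨0, zero_mem _, g.1, g.2, by simp⟩

theorem le_relIndex_subOrder [NumberField K] {al th : K} (hal : IsIntegral ℤ al)
    (hth : IsIntegral ℤ th) (lam : K →ₗ[ℚ] ℚ) (hl0 : ∀ y ∈ Algebra.adjoin ℤ {al}, lam y = 0)
    (D : ℕ) (hD : ∀ r ∈ integralClosure ℤ K, ∃ z : ℤ, (D : ℚ) * lam r = z)
    (z0 : ℤ) (hz0 : (D : ℚ) * lam th = z0) (hz0ne : z0 ≠ 0) (N : ℕ) (hN : 0 < N) :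
    N ≤ (subOrder al hal (N * z0.natAbs)).toAddSubgroup.relIndex
      (integralClosure ℤ K).toSubring.toAddSubgroup := by
  have hf : 0 < N * z0.natAbs := Nat.mul_pos hN (Int.natAbs_pos.2 hz0ne)
  have hfin := finite_quotient_subOrder al hal hf
  unfold AddSubgroup.relIndex AddSubgroup.index
  let c : Fin N → (integralClosure ℤ K).toSubring.toAddSubgroup ⧸
      ((subOrder al hal (N * z0.natAbs)).toAddSubgroup.addSubgroupOf
        (integralClosure ℤ K).toSubring.toAddSubgroup) :=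
    fun j => QuotientAddGroup.mk ⟨(j : ℕ) • th,
      nsmul_mem (show th ∈ (integralClosure ℤ K).toSubring.toAddSubgroup from hth) _⟩
  have hc : Function.Injective c := by
    intro j j' hjj
    rw [QuotientAddGroup.eq] at hjj
    obtain ⟨y, hy, r, hr, hx⟩ := hjj
    obtain ⟨z, hz⟩ := hD r hr
    have h1 := congrArg (fun x => (D : ℚ) * lam x) hx
    simp only [map_add, map_neg, map_nsmul, hl0 y hy, AddSubgroup.subtype_apply] at h1
    have h2 : (((j' : ℕ) : ℤ) - ((j : ℕ) : ℤ)) * z0 = (N : ℤ) * (z0.natAbs : ℤ) * z := by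
      have h3 : ((((j' : ℕ) : ℚ) - ((j : ℕ) : ℚ)) * z0 : ℚ) = ((N : ℚ) * (z0.natAbs : ℚ) * z : ℚ) := by
        rw [← hz0, ← hz]
        simp only [nsmul_eq_mul, Nat.cast_mul] at h1
        linear_combination h1
      have h4 : (((((j' : ℕ) : ℤ) - ((j : ℕ) : ℤ)) * z0 : ℤ) : ℚ) =
          (((N : ℤ) * (z0.natAbs : ℤ) * z : ℤ) : ℚ) := by
        simp only [Int.cast_mul, Int.cast_sub, Int.cast_natCast]
        exact h3
      exact Int.cast_injective h4
    have hdvd : (N : ℤ) ∣ (((j' : ℕ) : ℤ) - ((j : ℕ) : ℤ)) := by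
      rcases Int.natAbs_eq z0 with h4 | h4
      · refine ⟨z, ?_⟩
        rw [← h4] at h2
        apply mul_right_cancel₀ hz0ne
        linear_combination h2
      · refine ⟨-z, ?_⟩
        have h5 : (z0.natAbs : ℤ) = -z0 := by omega
        rw [h5] at h2
        apply mul_right_cancel₀ hz0ne
        linear_combination h2
    have hlt : |(((j' : ℕ) : ℤ) - ((j : ℕ) : ℤ))| < (N : ℤ) := by
      have := j.2
      have := j'.2
      rw [abs_lt]
      constructor <;> omega
    have := Int.eq_zero_of_abs_lt_dvd hdvd hlt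
    ext
    omega
  have := Nat.card_le_card_of_injective c hc
  simpa using this

end

end Vale.Agent.P007
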