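import Vale.Agent.P007.Fields

namespace Vale.Agent.P007

open QuadraticAlgebra Filter

theorem no_sqrt {p q : ℕ} [Fact (∀ r : QL, r ^ 2 ≠ (p : QL) + 0 * r)]
    (h1 : ¬ IsSquare q) (h2 : ¬ IsSquare (2 * q))
    (h3 : ¬ IsSquare (p * q)) (h4 : ¬ IsSquare (2 * (p * q))) (z : QK p) :
    embK p true true z ≠ √(q : ℝ) := by
  intro h
  refine QK_sq_ne h1 h2 h3 h4 z ?_
  apply (embK p true true).injective
  rw [map_mul, h, map_natCast]
  exact Real.mul_self_sqrt (by positivity)

/-- The sequence of data `(Q(sqrt 2, sqrt p_i), maximal order, sigma)`, `p_i` the odd primes. -/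
noncomputable def quarticSeq (i : ℕ) : Datum 4 :=
  quarticDatum (oddPrime i) (oddPrime_prime i).pos
    (nonsquares (oddPrime_prime i) (oddPrime_ne_two i)).1
    (nonsquares (oddPrime_prime i) (oddPrime_ne_two i)).2

theorem quarticSeq_fieldRange_injective : Function.Injective
    (fun i => ((quarticSeq i).sigma 0).toRatAlgHom.fieldRange) := by
  intro i j h
  by_contra hij
  have hpq : oddPrime i ≠ oddPrime j := fun h' => hij (oddPrime_injective h')
  have hmem : √(oddPrime j : ℝ) ∈ ((quarticSeq j).sigma 0).toRatAlgHom.fieldRange := by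
    refine ⟨rootP (oddPrime j), ?_⟩
    have := embK_rootP (oddPrime j) true true
    simp only [sgn, if_true, one_mul] at this
    exact this
  simp only at h
  rw [← h] at hmem
  obtain ⟨z, hz⟩ := hmem
  have := factK (nonsquares (oddPrime_prime i) (oddPrime_ne_two i)).1
    (nonsquares (oddPrime_prime i) (oddPrime_ne_two i)).2
  exact no_sqrt (nonsquares (oddPrime_prime j) (oddPrime_ne_two j)).1
    (nonsquares (oddPrime_prime j) (oddPrime_ne_two j)).2
    (nonsquares' (oddPrime_prime i) (oddPrime_ne_two i) (oddPrime_prime j) (oddPrime_ne_two j) hpq).1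
    (nonsquares' (oddPrime_prime i) (oddPrime_ne_two i) (oddPrime_prime j) (oddPrime_ne_two j) hpq).2
    z hz

theorem quarticSeq_absDisc (i : ℕ) :
    (quarticSeq i).absDisc = (NumberField.discr (quarticSeq i).K).natAbs := by
  unfold Datum.absDisc
  have : (quarticSeq i).O.toAddSubgroup.relIndex
      (integralClosure ℤ (quarticSeq i).K).toSubring.toAddSubgroup = 1 :=
    AddSubgroup.relIndex_self _
  rw [this]
  simp

theorem quarticSeq_tendsto : Tendsto (fun i => (quarticSeq i).absDisc) atTop atTop := by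
  simp only [quarticSeq_absDisc]
  exact tendsto_discr_of_injective (fun i => (quarticSeq i).sigma 0)
    quarticSeq_fieldRange_injective

theorem quarticSeq_small (i : ℕ) : ∃ a ∈ (quarticSeq i).O, (∀ k : ℤ, a ≠ k) ∧
    ∀ j, |(quarticSeq i).sigma j a| ≤ 2 := by
  refine ⟨rootTwo (oddPrime i), ?_, rootTwo_ne_int _, ?_⟩
  · change IsIntegral ℤ (rootTwo (oddPrime i))
    refine ⟨Polynomial.X ^ 2 - 2, ?_, ?_⟩
    · monicity!
    · simp [sq, rootTwo_mul_self]
  · intro j
    change |embK (oddPrime i) _ _ (rootTwo (oddPrime i))| ≤ 2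
    rw [embK_rootTwo, abs_mul]
    have h1 : |sgn (decide ((j : ℕ) < 2))| = 1 := by
      cases (decide ((j : ℕ) < 2)) <;> simp [sgn]
    rw [h1, one_mul, abs_of_nonneg (Real.sqrt_nonneg _)]
    rw [Real.sqrt_le_left (by norm_num)]
    norm_num

end Vale.Agent.P007
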