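import Mathlib

namespace Vale.Agent.P007

open NumberField Polynomial


theorem trace_dvd_of_pow (K : Type*) [Field K] [NumberField K] (p : ℕ) [hp : Fact p.Prime]
    (y : 𝓞 K) (k : ℕ) (hk : (p : 𝓞 K) ∣ y ^ k) : (p : ℤ) ∣ Algebra.trace ℤ (𝓞 K) y := by
  classical
  let b := RingOfIntegers.basis K
  rw [Algebra.trace_eq_matrix_trace b]
  obtain ⟨z, hz⟩ := hk
  have hA : (Algebra.leftMulMatrix b y) ^ k = (p : ℤ) • Algebra.leftMulMatrix b z := by
    rw [← map_pow, hz, ← map_zsmul]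
    congr 1
    simp
  have h0 : ((Int.castRingHom (ZMod p)).mapMatrix (Algebra.leftMulMatrix b y)) ^ k = 0 := by
    rw [← map_pow, hA]
    ext i j
    simp only [RingHom.mapMatrix_apply, Matrix.map_apply, Matrix.smul_apply, smul_eq_mul,
      Int.coe_castRingHom, Int.cast_mul, Int.cast_natCast, CharP.cast_eq_zero, zero_mul,
      Matrix.zero_apply]
  have htr := Matrix.isNilpotent_trace_of_isNilpotent (⟨k, h0⟩ : IsNilpotent _)
  have h1 := htr.eq_zero
  rw [← ZMod.intCast_zmod_eq_zero_iff_dvd]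
  rw [← h1]
  simp [Matrix.trace]

theorem dvd_discr_of_nilpotent (K : Type*) [Field K] [NumberField K] (p : ℕ) [hp : Fact p.Prime]
    (x : 𝓞 K) (k : ℕ) (hk : (p : 𝓞 K) ∣ x ^ k) (hx : ¬ (p : 𝓞 K) ∣ x) :
    (p : ℤ) ∣ NumberField.discr K := by
  classical
  let b := RingOfIntegers.basis K
  have hd : NumberField.discr K = (Algebra.traceMatrix ℤ b).det := rfl
  rw [hd, ← ZMod.intCast_zmod_eq_zero_iff_dvd]
  have h1 : (((Algebra.traceMatrix ℤ b).det : ℤ) : ZMod p) =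
      ((Int.castRingHom (ZMod p)).mapMatrix (Algebra.traceMatrix ℤ b)).det := by
    rw [← RingHom.map_det]; rfl
  rw [h1, ← Matrix.exists_vecMul_eq_zero_iff]
  refine ⟨fun i => ((b.repr x i : ℤ) : ZMod p), ?_, ?_⟩
  · intro h
    apply hx
    have h2 : ∀ i, (p : ℤ) ∣ b.repr x i := fun i => by
      rw [← ZMod.intCast_zmod_eq_zero_iff_dvd]
      exact congrFun h i
    choose c hc using h2
    refine ⟨∑ i, c i • b i, ?_⟩
    conv_lhs => rw [← b.sum_repr x]
    rw [Finset.mul_sum]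
    refine Finset.sum_congr rfl fun i _ => ?_
    rw [hc i]
    simp [mul_smul]
  · ext j
    have h3 : (p : ℤ) ∣ Algebra.trace ℤ (𝓞 K) (x * b j) := by
      refine trace_dvd_of_pow K p _ k ?_
      rw [mul_pow]
      exact Dvd.dvd.mul_right hk _
    rw [← ZMod.intCast_zmod_eq_zero_iff_dvd] at h3
    simp only [Matrix.vecMul, dotProduct, RingHom.mapMatrix_apply, Matrix.map_apply,
      Algebra.traceMatrix_apply, Algebra.traceForm_apply, Pi.zero_apply, Int.coe_castRingHom]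
    rw [← h3]
    conv_rhs => rw [← b.sum_repr x]
    rw [Finset.sum_mul, map_sum]
    push_cast
    refine Finset.sum_congr rfl fun i _ => ?_
    rw [smul_mul_assoc, map_smul]
    simp




theorem int_dvd_of_dvd (K : Type*) [Field K] [NumberField K] (p : ℕ) [hp : Fact p.Prime] (u : ℤ)
    (h : (p : 𝓞 K) ∣ (u : 𝓞 K)) : (p : ℤ) ∣ u := by
  classical
  have h1 := map_dvd (Algebra.norm ℤ) h
  have e1 := Algebra.norm_algebraMap_of_basis (RingOfIntegers.basis K) (p : ℤ)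
  have e2 := Algebra.norm_algebraMap_of_basis (RingOfIntegers.basis K) u
  simp only [algebraMap_int_eq, eq_intCast, Int.cast_natCast] at e1 e2
  rw [e1, e2] at h1
  have hn : Fintype.card (Module.Free.ChooseBasisIndex ℤ (𝓞 K)) ≠ 0 := Fintype.card_ne_zero
  exact (Nat.prime_iff_prime_int.1 hp.out).dvd_of_dvd_pow ((dvd_pow_self _ hn).trans h1)

theorem exists_prime_not_sq (M : Type*) [Field M] [NumberField M] (p : ℕ) [hp : Fact p.Prime]
    (hd : ¬ (p : ℤ) ∣ NumberField.discr M) :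
    ∃ P : Ideal (𝓞 M), P.IsPrime ∧ (p : 𝓞 M) ∈ P ∧ (p : 𝓞 M) ∉ P ^ 2 := by
  have hnu : ¬ IsUnit (p : 𝓞 M) := by
    intro h
    have h1 : (p : 𝓞 M) ∣ ((1 : ℤ) : 𝓞 M) := by simpa using h.dvd
    have h2 := int_dvd_of_dvd M p 1 h1
    have h3 := Int.natCast_dvd_natCast.1 (by simpa using h2 : (p : ℤ) ∣ ((1 : ℕ) : ℤ))
    exact hp.out.one_lt.ne' (Nat.dvd_one.1 h3)
  have hp0 : (p : 𝓞 M) ≠ 0 := by
    exact_mod_cast hp.out.ne_zero
  obtain ⟨P, hPmax, hP⟩ := Ideal.exists_le_maximal (Ideal.span {(p : 𝓞 M)})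
    (by rwa [Ne, Ideal.span_singleton_eq_top])
  refine ⟨P, hPmax.isPrime, hP (Ideal.mem_span_singleton_self _), fun hsq => hd ?_⟩
  have h1 : P ^ 2 ∣ Ideal.span {(p : 𝓞 M)} :=
    Ideal.dvd_iff_le.2 ((Ideal.span_singleton_le_iff_mem _).2 hsq)
  obtain ⟨J, hJ⟩ := h1
  have hne : Ideal.span {(p : 𝓞 M)} ≠ ⊥ := by
    rwa [Ne, Ideal.span_singleton_eq_bot]
  have hPJ : P * J ≠ 0 := by
    intro h0
    apply hne
    rw [hJ, sq, mul_assoc, h0, mul_zero]
    rfl
  have h2 : ¬ (P * J ≤ Ideal.span {(p : 𝓞 M)}) := by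
    intro hle
    have h3 := Ideal.dvd_iff_le.2 hle
    rw [hJ, sq, mul_assoc] at h3
    have h4 : P * (P * J) ∣ 1 * (P * J) := by rwa [one_mul]
    have h5 := (mul_dvd_mul_iff_right hPJ).1 h4
    have h6 : P = ⊤ := by
      rw [Ideal.dvd_iff_le] at h5
      exact top_le_iff.1 (by simpa using h5)
    exact hPmax.ne_top h6
  obtain ⟨x, hxI, hx⟩ := SetLike.not_le_iff_exists.1 h2
  refine dvd_discr_of_nilpotent M p x 2 ?_ ?_
  · rw [← Ideal.mem_span_singleton, hJ, sq x]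
    have h7 : x * x ∈ (P * J) * (P * J) := Ideal.mul_mem_mul hxI hxI
    have h8 : (P * J) * (P * J) = (P ^ 2 * J) * J := by ring
    rw [h8] at h7
    have h9 : (P ^ 2 * J) * J ≤ P ^ 2 * J := Ideal.mul_le_left
    exact h9 h7
  · rwa [← Ideal.mem_span_singleton]




theorem monic_eis (p b : ℕ) (G : ℤ[X]) (hG : G.natDegree < b) :
    (X ^ b + C (p : ℤ) * G).Monic ∧ (X ^ b + C (p : ℤ) * G).natDegree = b := by
  have h1 : (C (p : ℤ) * G).degree < b := by
    refine lt_of_le_of_lt degree_le_natDegree ?_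
    exact_mod_cast lt_of_le_of_lt (natDegree_C_mul_le _ _) hG
  refine ⟨monic_X_pow_add h1, ?_⟩
  rw [natDegree_add_eq_left_of_degree_lt (by rwa [degree_X_pow]), natDegree_X_pow]

theorem irreducible_map (M : Type*) [Field M] [NumberField M] (p : ℕ) [hp : Fact p.Prime]
    (hd : ¬ (p : ℤ) ∣ NumberField.discr M) (b : ℕ) (hb : 0 < b) (G : ℤ[X]) (hG : G.natDegree < b)
    (hu : IsCoprime (G.coeff 0) (p : ℤ)) :
    Irreducible ((X ^ b + C (p : ℤ) * G).map (algebraMap ℤ M)) := by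
  obtain ⟨P, hPprime, hpP, hpP2⟩ := exists_prime_not_sq M p hd
  obtain ⟨hmonic, hdeg⟩ := monic_eis p b G hG
  have hmonic' := hmonic.map (algebraMap ℤ (𝓞 M))
  have hdeg' : ((X ^ b + C (p : ℤ) * G).map (algebraMap ℤ (𝓞 M))).natDegree = b := by
    rw [hmonic.natDegree_map, hdeg]
  have hcoeff : ∀ i, i < b → ((X ^ b + C (p : ℤ) * G).map (algebraMap ℤ (𝓞 M))).coeff i
      = (p : 𝓞 M) * ((G.coeff i : ℤ) : 𝓞 M) := by
    intro i hi
    simp [coeff_X_pow, hi.ne]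
  have hE : ((X ^ b + C (p : ℤ) * G).map (algebraMap ℤ (𝓞 M))).IsEisensteinAt P :=
    { leading := by
        rw [hmonic'.leadingCoeff]
        exact fun h => hPprime.ne_top ((Ideal.eq_top_iff_one _).2 h)
      mem := by
        intro i hi
        rw [hdeg'] at hi
        rw [hcoeff i hi]
        exact Ideal.mul_mem_right _ _ hpP
      notMem := by
        rw [hcoeff 0 hb]
        intro h
        apply hpP2
        obtain ⟨s, t, hst⟩ := hu
        have h1 : (p : 𝓞 M) = (s : 𝓞 M) * ((p : 𝓞 M) * ((G.coeff 0 : ℤ) : 𝓞 M))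
            + (t : 𝓞 M) * ((p : 𝓞 M) * (p : 𝓞 M)) := by
          have h2 : ((s * G.coeff 0 + t * (p : ℤ) : ℤ) : 𝓞 M) = 1 := by rw [hst]; simp
          push_cast at h2
          linear_combination (-(p : 𝓞 M)) * h2
        rw [h1]
        refine Ideal.add_mem _ (Ideal.mul_mem_left _ _ h) (Ideal.mul_mem_left _ _ ?_)
        rw [sq]
        exact Ideal.mul_mem_mul hpP hpP }
  have hirr := hE.irreducible hPprime hmonic'.isPrimitive (by rw [hdeg']; exact hb)
  have h3 := (Monic.irreducible_iff_irreducible_map_fraction_map (K := M) hmonic').1 hirr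
  rwa [map_map, ← IsScalarTower.algebraMap_eq] at h3

theorem dvd_discr_of_root (K : Type*) [Field K] [NumberField K] (p : ℕ) [hp : Fact p.Prime]
    (b : ℕ) (hb : 2 ≤ b) (G : ℤ[X]) (hu : IsCoprime (G.coeff 0) (p : ℤ)) (t : 𝓞 K)
    (ht : aeval t (X ^ b + C (p : ℤ) * G) = 0) : (p : ℤ) ∣ NumberField.discr K := by
  have hp0 : (p : 𝓞 K) ≠ 0 := by exact_mod_cast hp.out.ne_zero
  simp only [map_add, map_pow, aeval_X, map_mul, map_natCast] at ht
  refine dvd_discr_of_nilpotent K p t b ⟨- aeval t G, by linear_combination ht⟩ ?_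
  rintro ⟨y, rfl⟩
  obtain ⟨c, rfl⟩ := Nat.exists_eq_add_of_le hb
  have hG : aeval ((p : 𝓞 K) * y) G
      = aeval ((p : 𝓞 K) * y) G.divX * ((p : 𝓞 K) * y) + ((G.coeff 0 : ℤ) : 𝓞 K) := by
    conv_lhs => rw [← divX_mul_X_add G]
    simp
  rw [hG] at ht
  have h1 : (p : 𝓞 K) * ((p : 𝓞 K) * y ^ 2 * ((p : 𝓞 K) * y) ^ c
      + aeval ((p : 𝓞 K) * y) G.divX * ((p : 𝓞 K) * y) + ((G.coeff 0 : ℤ) : 𝓞 K)) = 0 := by
    rw [← ht]
    ring
  have h2 := (mul_eq_zero.1 h1).resolve_left hp0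
  have h3 : (p : 𝓞 K) ∣ ((G.coeff 0 : ℤ) : 𝓞 K) :=
    ⟨-(y ^ 2 * ((p : 𝓞 K) * y) ^ c + aeval ((p : 𝓞 K) * y) G.divX * y), by
      linear_combination h2⟩
  have h4 := int_dvd_of_dvd K p _ h3
  have h5 : IsUnit (p : ℤ) := hu.symm.isUnit_of_dvd' (dvd_refl _) h4
  exact (Nat.prime_iff_prime_int.1 hp.out).not_isUnit h5

end Vale.Agent.P007
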