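import Vale.Agent.P007.Composite

namespace Vale.Agent.P007

open Filter MeasureTheory

theorem exists_integral_multiple' {K : Type} [Field K] [NumberField K] (x : K) :
    ∃ N : ℤ, N ≠ 0 ∧ IsIntegral ℤ ((N : K) * x) := by
  have halg : IsAlgebraic ℤ x := by
    have : IsAlgebraic ℚ x := Algebra.IsAlgebraic.isAlgebraic x
    exact (IsFractionRing.isAlgebraic_iff ℤ ℚ K).2 this
  obtain ⟨y, hy0, hy⟩ := halg.exists_integral_multiple
  refine ⟨y, hy0, ?_⟩
  rwa [zsmul_eq_mul] at hy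

theorem exists_orders_of_datum {n : ℕ} (d : Datum n) (a : d.K) (ha : ∀ r : ℚ, a ≠ r)
    (i j : Fin n) (hij : i ≠ j) (h : d.sigma i a = d.sigma j a) :
    ∃ (O : ℕ → Subring d.K) (hi : ∀ N, ∀ x ∈ O N, IsIntegral ℤ x)
      (hf : ∀ N, Submodule.span ℚ (O N : Set d.K) = ⊤),
      Tendsto (fun N => (d.withOrder (O N) (hi N) (hf N)).absDisc) atTop atTop ∧
      ∃ C : ℝ, ∀ N, ∃ a ∈ (d.withOrder (O N) (hi N) (hf N)).O, (∀ k : ℤ, a ≠ k) ∧
        ∀ l, |(d.withOrder (O N) (hi N) (hf N)).sigma l a| ≤ C := by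
  obtain ⟨N, hN0, hal⟩ := exists_integral_multiple' a
  have hne : d.sigma i ≠ d.sigma j := fun h' => hij (d.sigma_injective h')
  obtain ⟨x, hx⟩ : ∃ x, d.sigma i x ≠ d.sigma j x := by
    by_contra hcon
    push Not at hcon
    exact hne (RingHom.ext hcon)
  obtain ⟨M, hM0, hth⟩ := exists_integral_multiple' x
  have hNK : (N : d.K) ≠ 0 := by exact_mod_cast hN0
  have hZ : ∀ k : ℤ, (N : d.K) * a ≠ k := by
    intro k hk
    apply ha ((k : ℚ) / N)
    rw [Rat.cast_div, Rat.cast_intCast, Rat.cast_intCast, eq_div_iff hNK, mul_comm]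
    exact hk
  have h1 : d.sigma i ((N : d.K) * a) = d.sigma j ((N : d.K) * a) := by
    simp [h]
  have h2 : d.sigma i ((M : d.K) * x) ≠ d.sigma j ((M : d.K) * x) := by
    have hMR : (M : ℝ) ≠ 0 := by exact_mod_cast hM0
    simp only [map_mul, map_intCast]
    exact fun h' => hx (mul_left_cancel₀ hMR h')
  obtain ⟨lam, hl1, hl0⟩ := exists_functional (d.sigma i) (d.sigma j) h1 h2
  obtain ⟨D, hDpos, hD⟩ := exists_denominator lam
  obtain ⟨z0, hz0⟩ := hD _ hth
  have hz0ne : z0 ≠ 0 := by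
    rintro rfl
    have hD0 : (D : ℚ) ≠ 0 := by exact_mod_cast hDpos.ne'
    simp only [Int.cast_zero, mul_eq_zero] at hz0
    rcases hz0 with h | h
    · exact hD0 h
    · exact hl1 h
  have hfpos : ∀ N : ℕ, 0 < (N + 1) * z0.natAbs :=
    fun N => Nat.mul_pos (Nat.succ_pos N) (Int.natAbs_pos.2 hz0ne)
  refine ⟨fun k => subOrder _ hal ((k + 1) * z0.natAbs),
    fun k => subOrder_integral _ hal _, fun k => subOrder_fullRank _ hal (hfpos k), ?_,
    ∑ l, |d.sigma l ((N : d.K) * a)|, fun k => ⟨_, mem_subOrder_self _ hal _, hZ, fun l => ?_⟩⟩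
  · refine tendsto_atTop_mono (fun k => ?_) tendsto_id
    have h3 := le_relIndex_subOrder hal hth lam hl0 D hD z0 hz0 hz0ne (k + 1) (Nat.succ_pos k)
    have h4 : 1 ≤ (NumberField.discr d.K).natAbs :=
      Nat.one_le_iff_ne_zero.2 (Int.natAbs_ne_zero.2 (NumberField.discr_ne_zero d.K))
    change k ≤ (NumberField.discr d.K).natAbs *
      ((subOrder _ hal ((k + 1) * z0.natAbs)).toAddSubgroup.relIndex
        (integralClosure ℤ d.K).toSubring.toAddSubgroup) ^ 2
    nlinarith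
  · exact Finset.single_le_sum (f := fun l => |d.sigma l ((N : d.K) * a)|)
      (fun l _ => abs_nonneg _) (Finset.mem_univ l)

end Vale.Agent.P007
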