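import Vale.Agent.P007.Defs

open MeasureTheory Filter Topology

namespace Vale.Agent.P007

variable {n : ℕ}

theorem isClosed_SLZ (n : ℕ) : IsClosed (SLZ n : Set (SLR n)) := by
  have h : IsClosedEmbedding (Matrix.SpecialLinearGroup.map (n := Fin n) (Int.castRingHom ℝ)) :=
    Topology.IsClosedEmbedding.specialLinearGroup_map Int.isClosedEmbedding_coe_real
  have := h.isClosed_range
  simpa [SLZ, MonoidHom.coe_range] using this

instance (n : ℕ) : T2Space (X n) := by
  have : IsClosed (SLZ n : Set (SLR n)) := isClosed_SLZ n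
  exact inferInstanceAs (T2Space (Quotient (MulAction.orbitRel (SLZ n) (SLR n))))

theorem isOpenQuotientMap_mk : IsOpenQuotientMap (X.coset : SLR n → X n) :=
  MulAction.isOpenQuotientMap_quotientMk

instance (n : ℕ) : LocallyCompactSpace (SLR n) :=
  haveI : LocallyCompactSpace (Matrix (Fin n) (Fin n) ℝ) :=
    inferInstanceAs (LocallyCompactSpace (Fin n → Fin n → ℝ))
  Matrix.SpecialLinearGroup.isClosedEmbedding_val.locallyCompactSpace

instance (n : ℕ) : SecondCountableTopology (SLR n) :=
  haveI : SecondCountableTopology (Matrix (Fin n) (Fin n) ℝ) :=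
    inferInstanceAs (SecondCountableTopology (Fin n → Fin n → ℝ))
  Matrix.SpecialLinearGroup.isClosedEmbedding_val.isEmbedding.secondCountableTopology

instance (n : ℕ) : LocallyCompactSpace (X n) := isOpenQuotientMap_mk.locallyCompactSpace

instance (n : ℕ) : SecondCountableTopology (X n) :=
  isOpenQuotientMap_mk.isQuotientMap.secondCountableTopology isOpenQuotientMap_mk.isOpenMap

theorem mk_surjective : Function.Surjective (X.coset : SLR n → X n) := Quotient.mk_surjective

@[simp] theorem act_mk (g h : SLR n) : (X.coset g).act h = X.coset (g * h) := rfl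

theorem mk_eq_mk_iff {g g' : SLR n} : X.coset g = X.coset g' ↔ ∃ γ ∈ SLZ n, γ * g' = g := by
  have : X.coset g = X.coset g' ↔ (MulAction.orbitRel (SLZ n) (SLR n)) g g' :=
    Quotient.eq (r := MulAction.orbitRel (SLZ n) (SLR n))
  rw [this]
  constructor
  · rintro ⟨γ, hγ⟩
    exact ⟨γ.1, γ.2, hγ⟩
  · rintro ⟨γ, hγ, h⟩
    exact ⟨⟨γ, hγ⟩, h⟩

theorem continuous_act (h : SLR n) : Continuous (fun x : X n => x.act h) := by
  rw [isOpenQuotientMap_mk.isQuotientMap.continuous_iff]
  exact isOpenQuotientMap_mk.continuous.comp (continuous_mul_const h)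

theorem act_act (x : X n) (h h' : SLR n) : (x.act h).act h' = x.act (h * h') := by
  obtain ⟨g, rfl⟩ := mk_surjective x
  simp [mul_assoc]

theorem act_one (x : X n) : x.act 1 = x := by
  obtain ⟨g, rfl⟩ := mk_surjective x
  simp

theorem sum_extend (v : Fin (n - 1) → ℝ) : ∑ j, extend v j = 0 := by
  obtain _ | k := n
  · simp
  · rw [Fin.sum_univ_castSucc]
    have h1 : ∀ i : Fin k, extend (n := k + 1) v (Fin.castSucc i) = v i := by
      intro i
      have : ((Fin.castSucc i : Fin (k + 1)) : ℕ) < k + 1 - 1 := by simp
      simp only [extend, this, dite_true]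
      rfl
    have h2 : extend (n := k + 1) v (Fin.last k) = - ∑ i : Fin k, v i := by
      have : ¬ ((Fin.last k : Fin (k + 1)) : ℕ) < k + 1 - 1 := by simp
      simp only [extend, this, dite_false]
      rfl
    rw [h2, Finset.sum_congr rfl (fun i _ => h1 i)]
    simp

theorem diagExp_val {u : Fin n → ℝ} (h : ∑ j, u j = 0) :
    (diagExp u : Matrix (Fin n) (Fin n) ℝ) = Matrix.diagonal fun j => Real.exp (u j) := by
  simp [diagExp, h]

theorem continuous_extend : Continuous (extend : (Fin (n - 1) → ℝ) → Fin n → ℝ) := by
  refine continuous_pi fun j => ?_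
  by_cases h : (j : ℕ) < n - 1
  · simp only [extend, h, dite_true]
    exact continuous_apply _
  · simp only [extend, h, dite_false]
    exact (continuous_finsetSum _ fun k _ => continuous_apply k).neg

theorem continuous_diagExp_extend :
    Continuous (fun v : Fin (n - 1) → ℝ => diagExp (extend v)) := by
  refine (Matrix.SpecialLinearGroup.isClosedEmbedding_val
    (n := Fin n) (R := ℝ)).isInducing.continuous_iff.2 ?_
  have : ((fun g : SLR n => (g : Matrix (Fin n) (Fin n) ℝ)) ∘
      fun v : Fin (n - 1) → ℝ => diagExp (extend v)) =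
      fun v => Matrix.diagonal fun j => Real.exp (extend v j) := by
    funext v
    exact diagExp_val (sum_extend v)
  change Continuous ((fun g : SLR n => (g : Matrix (Fin n) (Fin n) ℝ)) ∘
      fun v : Fin (n - 1) → ℝ => diagExp (extend v))
  rw [this]
  refine Continuous.matrix_diagonal ?_
  exact continuous_pi fun j => Real.continuous_exp.comp ((continuous_apply j).comp continuous_extend)

theorem continuous_orbitMap (x : X n) :
    Continuous (fun v : Fin (n - 1) → ℝ => x.act (diagExp (extend v))) := by
  obtain ⟨g, rfl⟩ := mk_surjective x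
  simp only [act_mk]
  exact isOpenQuotientMap_mk.continuous.comp (continuous_const.mul continuous_diagExp_extend)


end Vale.Agent.P007
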