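import Vale.Agent.P007.Ramify
import Vale.Agent.P007.Fields

namespace Vale.Agent.P007

open NumberField Polynomial Filter

section Tower

variable (M : Type) [Field M] (F : ℤ[X])

/-- The ring `M[x]/(F)`. -/
abbrev TK : Type := AdjoinRoot (F.map (algebraMap ℤ M))

theorem eval₂_emb (τ : M →+* ℝ) (x : ℝ) (hx : aeval x F = 0) :
    (F.map (algebraMap ℤ M)).eval₂ τ x = 0 := by
  rw [eval₂_map, ← hx, aeval_def]
  congr 1
  exact RingHom.ext_int _ _

/-- The embedding of `M[x]/(F)` extending `τ` and sending the root to `x`. -/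
noncomputable def embTK (τ : M →+* ℝ) (x : ℝ) (hx : aeval x F = 0) : TK M F →+* ℝ :=
  AdjoinRoot.lift τ x (eval₂_emb M F τ x hx)

theorem embTK_of (τ : M →+* ℝ) (x : ℝ) (hx : aeval x F = 0) (m : M) :
    embTK M F τ x hx (AdjoinRoot.of _ m) = τ m := by
  simp [embTK]

theorem embTK_root (τ : M →+* ℝ) (x : ℝ) (hx : aeval x F = 0) :
    embTK M F τ x hx (AdjoinRoot.root _) = x := by
  simp [embTK]

theorem aeval_root : aeval (AdjoinRoot.root (F.map (algebraMap ℤ M))) F = 0 := by
  have h := AdjoinRoot.eval₂_root (F.map (algebraMap ℤ M))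
  rw [eval₂_map] at h
  rw [aeval_def, ← h]
  congr 1

theorem isIntegral_root (hm : F.Monic) : IsIntegral ℤ (AdjoinRoot.root (F.map (algebraMap ℤ M))) :=
  ⟨F, hm, by rw [← aeval_def]; exact aeval_root M F⟩

variable [NumberField M] [hF : Fact (Irreducible (F.map (algebraMap ℤ M)))]

instance : CharZero (TK M F) := charZero_of_injective_algebraMap (algebraMap M (TK M F)).injective

instance : Module.Finite M (TK M F) := (AdjoinRoot.powerBasis hF.out.ne_zero).finite

instance : NumberField (TK M F) where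
  to_charZero := inferInstance
  to_finiteDimensional := Module.Finite.trans M (TK M F)

theorem finrank_TK (hm : F.Monic) : Module.finrank ℚ (TK M F) = Module.finrank ℚ M * F.natDegree := by
  rw [← Module.finrank_mul_finrank ℚ M (TK M F), (AdjoinRoot.powerBasis hF.out.ne_zero).finrank,
    AdjoinRoot.powerBasis_dim, hm.natDegree_map]

/-- The datum `(M[x]/(F), maximal order, sigma)`. -/
noncomputable def towerDatum {a b : ℕ} (hm : F.Monic) (hdeg : F.natDegree = b)
    (hM : Module.finrank ℚ M = a) (τ : Fin a → M →+* ℝ) (hτ : Function.Injective τ)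
    (x : Fin b → ℝ) (hx : Function.Injective x) (hroot : ∀ l, aeval (x l) F = 0) :
    Datum (a * b) :=
  { K := TK M F
    degree := by rw [finrank_TK M F hm, hM, hdeg]
    sigma := fun i => embTK M F (τ (finProdFinEquiv.symm i).1) (x (finProdFinEquiv.symm i).2)
      (hroot _)
    sigma_injective := by
      intro i j h
      have h1 : τ (finProdFinEquiv.symm i).1 = τ (finProdFinEquiv.symm j).1 := by
        ext m
        have := congrArg (fun f : TK M F →+* ℝ => f (AdjoinRoot.of _ m)) h
        simpa only [embTK_of] using this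
      have h2 : x (finProdFinEquiv.symm i).2 = x (finProdFinEquiv.symm j).2 := by
        have := congrArg (fun f : TK M F →+* ℝ => f (AdjoinRoot.root _)) h
        simpa only [embTK_root] using this
      exact finProdFinEquiv.symm.injective (Prod.ext (hτ h1) (hx h2))
    O := maxOrder (TK M F)
    integral := maxOrder_integral _
    fullRank := maxOrder_fullRank _ }

end Tower

theorem absDisc_of_maximal {n : ℕ} (d : Datum n) (h : d.O = maxOrder d.K) :
    d.absDisc = (NumberField.discr d.K).natAbs := by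
  unfold Datum.absDisc
  have : d.O.toAddSubgroup.relIndex (integralClosure ℤ d.K).toSubring.toAddSubgroup = 1 := by
    rw [h]
    exact AddSubgroup.relIndex_self _
  rw [this]
  simp

theorem exists_maximal_seq_of (a b : ℕ) (hb : 2 ≤ b)
    (H1 : ∃ (M : Type) (_ : Field M) (_ : NumberField M) (s : Fin a → M →+* ℝ) (th : M),
      Module.finrank ℚ M = a ∧ Function.Injective s ∧ IsIntegral ℤ th ∧ ∀ k : ℤ, th ≠ k)
    (H2 : ∀ p : ℕ, p.Prime → 5 ≤ p → ∃ G : ℤ[X], G.natDegree < b ∧ IsCoprime (G.coeff 0) (p : ℤ) ∧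
      ∃ x : Fin b → ℝ, Function.Injective x ∧ ∀ l, aeval (x l) (Polynomial.X ^ b + C (p : ℤ) * G) = 0) :
    ∃ d : ℕ → Datum (a * b), (∀ i, ∀ x : (d i).K, x ∈ (d i).O ↔ IsIntegral ℤ x) ∧
      Tendsto (fun i => (d i).absDisc) atTop atTop ∧
      ∃ C : ℝ, ∀ i, ∃ al ∈ (d i).O, (∀ k : ℤ, al ≠ k) ∧ ∀ l, |(d i).sigma l al| ≤ C := by
  obtain ⟨M, _, _, τ, th, hM, hτ, hth, hthZ⟩ := H1
  have hprime : ∀ i : ℕ, ∃ p : ℕ, i + (NumberField.discr M).natAbs + 5 ≤ p ∧ p.Prime :=
    fun i => Nat.exists_infinite_primes _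
  choose p hple hpp using hprime
  have hnd : ∀ i, ¬ ((p i : ℕ) : ℤ) ∣ NumberField.discr M := by
    intro i h
    have h1 := Int.natAbs_dvd_natAbs.2 h
    rw [Int.natAbs_natCast] at h1
    have h2 := Nat.le_of_dvd (Int.natAbs_pos.2 (NumberField.discr_ne_zero M)) h1
    have := hple i
    omega
  have H3 := fun i => H2 (p i) (hpp i) (by have := hple i; omega)
  choose G hG hu x hx hroot using H3
  have hfact : ∀ i, Fact (Irreducible ((Polynomial.X ^ b + C ((p i : ℕ) : ℤ) * G i).map (algebraMap ℤ M))) :=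
    fun i => ⟨by
      have : Fact (p i).Prime := ⟨hpp i⟩
      exact irreducible_map M (p i) (hnd i) b (by omega) (G i) (hG i) (hu i)⟩
  let d : ℕ → Datum (a * b) := fun i =>
    towerDatum M (Polynomial.X ^ b + C ((p i : ℕ) : ℤ) * G i) (monic_eis (p i) b (G i) (hG i)).1
      (monic_eis (p i) b (G i) (hG i)).2 hM τ hτ (x i) (hx i) (hroot i)
  refine ⟨d, fun i x => Iff.rfl, ?_, ∑ l, |τ l th|, fun i => ?_⟩
  · refine tendsto_atTop_mono (fun i => ?_) tendsto_id
    have : Fact (p i).Prime := ⟨hpp i⟩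
    have := hfact i
    have h0 : (d i).absDisc
        = (NumberField.discr (TK M (Polynomial.X ^ b + C ((p i : ℕ) : ℤ) * G i))).natAbs :=
      absDisc_of_maximal (d i) rfl
    rw [h0]
    have hint := isIntegral_root M (Polynomial.X ^ b + C ((p i : ℕ) : ℤ) * G i)
      (monic_eis (p i) b (G i) (hG i)).1
    have h1 : ((p i : ℕ) : ℤ) ∣
        NumberField.discr (TK M (Polynomial.X ^ b + C ((p i : ℕ) : ℤ) * G i)) := by
      refine dvd_discr_of_root (TK M (Polynomial.X ^ b + C ((p i : ℕ) : ℤ) * G i)) (p i) b hb (G i) (hu i)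
        ⟨_, hint⟩ ?_
      apply RingOfIntegers.coe_injective
      have h5 := aeval_algebraMap_apply (TK M (Polynomial.X ^ b + C ((p i : ℕ) : ℤ) * G i))
        (⟨_, hint⟩ : 𝓞 (TK M (Polynomial.X ^ b + C ((p i : ℕ) : ℤ) * G i)))
        (Polynomial.X ^ b + C ((p i : ℕ) : ℤ) * G i)
      rw [map_zero]
      refine h5.symm.trans ?_
      exact aeval_root M (Polynomial.X ^ b + C ((p i : ℕ) : ℤ) * G i)
    have h2 := Int.natAbs_dvd_natAbs.2 h1
    rw [Int.natAbs_natCast] at h2
    have h3 := Nat.le_of_dvd (Int.natAbs_pos.2 (NumberField.discr_ne_zero _)) h2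
    have := hple i
    simp only [id]
    omega
  · refine ⟨AdjoinRoot.of _ th, ?_, fun k hk => ?_, fun l => ?_⟩
    · exact map_isIntegral_int (AdjoinRoot.of _) hth
    · apply hthZ k
      have := hfact i
      apply (AdjoinRoot.of ((Polynomial.X ^ b + C ((p i : ℕ) : ℤ) * G i).map (algebraMap ℤ M))).injective
      rw [map_intCast]
      exact hk
    · change |embTK M _ (τ (finProdFinEquiv.symm l).1) (x i (finProdFinEquiv.symm l).2)
        (hroot i _) (AdjoinRoot.of _ th)| ≤ _
      rw [embTK_of]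
      exact Finset.single_le_sum (f := fun l => |τ l th|) (fun l _ => abs_nonneg _)
        (Finset.mem_univ _)

end Vale.Agent.P007
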