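import Vale.Agent.P007.Topology

open MeasureTheory Filter Topology

namespace Vale.Agent.P007

variable {n : ℕ}

/-- `L` is stable under the diagonal matrix with entries `dd`. -/
def Stable (dd : Fin n → ℝ) (L : Submodule ℤ (Fin n → ℝ)) : Prop := ∀ y ∈ L, dd * y ∈ L

theorem Stable.scale {dd : Fin n → ℝ} {L : Submodule ℤ (Fin n → ℝ)} (h : Stable dd L)
    (t : Fin n → ℝ) : Stable dd (scale t L) := by
  rintro y ⟨y0, hy0, rfl⟩
  refine ⟨dd * y0, h y0 hy0, ?_⟩
  simp only [LinearMap.mulLeft_apply]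
  ring

theorem stable_sigmaLattice (d : Datum n) {I : Set d.K} (hI : d.IsProper I) {a : d.K}
    (ha : a ∈ d.O) : Stable (fun j => d.sigma j a) (d.sigmaLattice I) := by
  intro y hy
  unfold Datum.sigmaLattice at hy ⊢
  induction hy using Submodule.span_induction with
  | mem y hy =>
    obtain ⟨x, hx, rfl⟩ := hy
    refine Submodule.subset_span ⟨a * x, (hI a).2 ha x hx, ?_⟩
    funext j
    simp
  | zero => simp
  | add y z _ _ hy hz =>
    rw [mul_add]
    exact Submodule.add_mem _ hy hz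
  | smul k y _ hy =>
    rw [mul_smul_comm]
    exact Submodule.smul_mem _ k hy

theorem rowLattice_mul_diagExp (g : SLR n) {u : Fin n → ℝ} (h : ∑ j, u j = 0) :
    rowLattice (g * diagExp u) = scale (fun j => Real.exp (u j)) (rowLattice g) := by
  unfold rowLattice scale
  rw [Submodule.map_span, ← Set.range_comp]
  congr 2
  funext i j
  simp [diagExp_val h, Matrix.mul_diagonal, mul_comm]

theorem rowLattice_mul_le {γ : SLR n} (hγ : γ ∈ SLZ n) (w : SLR n) :
    rowLattice (γ * w) ≤ rowLattice w := by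
  obtain ⟨γ0, rfl⟩ := hγ
  unfold rowLattice
  rw [Submodule.span_le]
  rintro _ ⟨i, rfl⟩
  have : (fun j => ((Matrix.SpecialLinearGroup.map (Int.castRingHom ℝ) γ0 * w : SLR n) :
      Matrix (Fin n) (Fin n) ℝ) i j) =
      ∑ k, (γ0 i k) • (fun j => (w : Matrix (Fin n) (Fin n) ℝ) k j) := by
    funext j
    simp [Matrix.mul_apply]
  change (fun j => ((Matrix.SpecialLinearGroup.map (Int.castRingHom ℝ) γ0 * w : SLR n) :
      Matrix (Fin n) (Fin n) ℝ) i j) ∈ _
  rw [this]
  exact Submodule.sum_mem _ fun k _ => Submodule.smul_mem _ _ (Submodule.subset_span ⟨k, rfl⟩)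

theorem rowLattice_mul_of_mem {γ : SLR n} (hγ : γ ∈ SLZ n) (w : SLR n) :
    rowLattice (γ * w) = rowLattice w := by
  refine le_antisymm (rowLattice_mul_le hγ w) ?_
  have := rowLattice_mul_le ((SLZ n).inv_mem hγ) (γ * w)
  simpa using this

/-- A neighbourhood of the identity. -/
def nbhd (n : ℕ) (C : ℝ) : Set (SLR n) :=
  {w | ∀ i j : Fin n, i ≠ j →
    C * ∑ k, |(w : Matrix (Fin n) (Fin n) ℝ) i k| * |(w⁻¹ : SLR n).1 k j| < 1}

theorem continuous_entry (i j : Fin n) :
    Continuous (fun w : SLR n => (w : Matrix (Fin n) (Fin n) ℝ) i j) :=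
  (continuous_apply j).comp ((continuous_apply i).comp
    (Matrix.SpecialLinearGroup.isClosedEmbedding_val (n := Fin n) (R := ℝ)).continuous)

theorem isOpen_nbhd (C : ℝ) : IsOpen (nbhd n C) := by
  have : nbhd n C = ⋂ i : Fin n, ⋂ j : Fin n, {w : SLR n | i ≠ j →
      C * ∑ k, |(w : Matrix (Fin n) (Fin n) ℝ) i k| * |(w⁻¹ : SLR n).1 k j| < 1} := by
    ext w
    simp [nbhd]
  rw [this]
  refine isOpen_iInter_of_finite fun i => isOpen_iInter_of_finite fun j => ?_
  by_cases hij : i = j
  · simp [hij]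
  · have : {w : SLR n | i ≠ j →
        C * ∑ k, |(w : Matrix (Fin n) (Fin n) ℝ) i k| * |(w⁻¹ : SLR n).1 k j| < 1} =
        {w : SLR n | C * ∑ k, |(w : Matrix (Fin n) (Fin n) ℝ) i k| * |(w⁻¹ : SLR n).1 k j| < 1} := by
      ext w
      simp [hij]
    rw [this]
    refine isOpen_lt ?_ continuous_const
    refine continuous_const.mul (continuous_finsetSum _ fun k _ => ?_)
    exact (continuous_entry i k).abs.mul ((continuous_entry k j).comp continuous_inv).abs

theorem one_mem_nbhd (C : ℝ) : (1 : SLR n) ∈ nbhd n C := by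
  intro i j hij
  have : ∑ k, |((1 : SLR n) : Matrix (Fin n) (Fin n) ℝ) i k| * |((1 : SLR n)⁻¹ : SLR n).1 k j| = 0 := by
    refine Finset.sum_eq_zero fun k _ => ?_
    by_cases hik : i = k
    · subst hik
      simp [hij]
    · simp [Matrix.one_apply, hik]
  rw [this]
  simp

theorem integer_of_stable {C : ℝ} {w : SLR n} (hw : w ∈ nbhd n C) {dd : Fin n → ℝ}
    (hdd : ∀ j, |dd j| ≤ C) (hst : Stable dd (rowLattice w)) (j : Fin n) : ∃ k : ℤ, dd j = k := by
  have h1 : ∀ i : Fin n, ∃ c : Fin n → ℤ,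
      ∑ k, c k • (fun l => (w : Matrix (Fin n) (Fin n) ℝ) k l) =
        dd * (fun l => (w : Matrix (Fin n) (Fin n) ℝ) i l) := by
    intro i
    have := hst _ (Submodule.subset_span ⟨i, rfl⟩ : (fun l => (w : Matrix (Fin n) (Fin n) ℝ) i l) ∈
      rowLattice w)
    exact (Submodule.mem_span_range_iff_exists_fun ℤ).1 this
  choose M hM using h1
  -- entrywise form
  have hM' : ∀ i l, ∑ k, (M i k : ℝ) * (w : Matrix (Fin n) (Fin n) ℝ) k l =
      dd l * (w : Matrix (Fin n) (Fin n) ℝ) i l := by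
    intro i l
    have := congrFun (hM i) l
    simpa using this
  set W : Matrix (Fin n) (Fin n) ℝ := (w : Matrix (Fin n) (Fin n) ℝ) with hW
  set Wi : Matrix (Fin n) (Fin n) ℝ := (w⁻¹ : SLR n).1 with hWi
  have hWWi : W * Wi = 1 := by
    have h0 : ((w * w⁻¹ : SLR n) : Matrix (Fin n) (Fin n) ℝ) = ((1 : SLR n) : Matrix (Fin n) (Fin n) ℝ) := by
      rw [mul_inv_cancel]
    rw [Matrix.SpecialLinearGroup.coe_mul, Matrix.SpecialLinearGroup.coe_one] at h0
    exact h0
  set Mr : Matrix (Fin n) (Fin n) ℝ := Matrix.of fun i k => (M i k : ℝ) with hMr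
  have hMW : Mr * W = W * Matrix.diagonal dd := by
    ext i l
    rw [Matrix.mul_diagonal, Matrix.mul_apply]
    simp only [hMr, Matrix.of_apply]
    rw [hM' i l, mul_comm]
  have hMeq : Mr = W * Matrix.diagonal dd * Wi := by
    calc Mr = Mr * (W * Wi) := by rw [hWWi, mul_one]
      _ = (Mr * W) * Wi := by rw [Matrix.mul_assoc]
      _ = W * Matrix.diagonal dd * Wi := by rw [hMW]
  have hentry : ∀ i j, (M i j : ℝ) = ∑ k, W i k * dd k * Wi k j := by
    intro i j
    have := congrFun (congrFun hMeq i) j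
    rw [Matrix.mul_apply] at this
    simp only [Matrix.mul_diagonal] at this
    simpa [hMr] using this
  have hoff : ∀ i j, i ≠ j → M i j = 0 := by
    intro i j hij
    have h2 : |(M i j : ℝ)| < 1 := by
      calc |(M i j : ℝ)| = |∑ k, W i k * dd k * Wi k j| := by rw [hentry]
        _ ≤ ∑ k, |W i k * dd k * Wi k j| := Finset.abs_sum_le_sum_abs _ _
        _ ≤ ∑ k, C * (|W i k| * |Wi k j|) := by
            refine Finset.sum_le_sum fun k _ => ?_
            rw [abs_mul, abs_mul]
            have h3 := hdd k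
            have h4 : 0 ≤ |W i k| * |Wi k j| := by positivity
            calc |W i k| * |dd k| * |Wi k j| = |dd k| * (|W i k| * |Wi k j|) := by ring
              _ ≤ C * (|W i k| * |Wi k j|) := mul_le_mul_of_nonneg_right h3 h4
        _ = C * ∑ k, |W i k| * |Wi k j| := by rw [Finset.mul_sum]
        _ < 1 := hw i j hij
    have h5 : |M i j| < 1 := by exact_mod_cast h2
    exact Int.abs_lt_one_iff.1 h5
  have hcol : ∃ i, W i j ≠ 0 := by
    by_contra hcon
    push Not at hcon
    have hdet : W.det = 0 := Matrix.det_eq_zero_of_column_eq_zero j hcon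
    have : W.det = 1 := w.2
    rw [hdet] at this
    exact zero_ne_one this
  obtain ⟨i, hi⟩ := hcol
  refine ⟨M i i, ?_⟩
  have h6 := hM' i j
  rw [Finset.sum_eq_single i (fun k _ hk => by rw [hoff i k (Ne.symm hk)]; simp) (by simp)] at h6
  exact (mul_right_cancel₀ hi h6).symm

end Vale.Agent.P007
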